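import Vale.Agent.Lib.H7Tingley.Global

/-! In a separable Banach space whose norm is affine along initial parts of rays each unit
vector lies in a facet. -/

namespace Vale.Agent.H7Tingley

open Metric Set

variable {X : Type*} [NormedAddCommGroup X] [NormedSpace ℝ X]

/-- `φ` computes the norm near `u`. -/
def Near (φ : X →L[ℝ] ℝ) (u : X) : Prop := ∃ ρ > 0, ∀ u', ‖u' - u‖ < ρ → φ u' = ‖u'‖

theorem facet_of_near {φ : X →L[ℝ] ℝ} (hφ : ∀ x, φ x ≤ ‖x‖) {u z : X} (hz : z ≠ 0)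
    (h : Near φ u) : ∃ c r, Facet φ c r := by
  obtain ⟨ρ, hρ, hu⟩ := h
  -- choose a nonzero point
  obtain ⟨y, ρ', hρ', hy0, hy⟩ : ∃ (y : X) (ρ' : ℝ), 0 < ρ' ∧ y ≠ 0 ∧
      ∀ u', ‖u' - y‖ < ρ' → φ u' = ‖u'‖ := by
    by_cases h0 : u = 0
    · have hzn : 0 < ‖z‖ := norm_pos_iff.mpr hz
      refine ⟨(ρ / 2 / ‖z‖) • z, ρ / 2, by positivity, ?_, ?_⟩
      · apply smul_ne_zero _ hz
        positivity
      · intro u' hu'
        apply hu
        rw [h0, sub_zero]
        have e : u' = (u' - (ρ / 2 / ‖z‖) • z) + (ρ / 2 / ‖z‖) • z := by abel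
        rw [e]
        refine lt_of_le_of_lt (norm_add_le _ _) ?_
        have : ‖(ρ / 2 / ‖z‖) • z‖ = ρ / 2 := by
          rw [norm_smul, Real.norm_of_nonneg (by positivity), div_mul_cancel₀ _ hzn.ne']
        linarith
    · exact ⟨u, ρ, hρ, h0, hu⟩
  have hyn : 0 < ‖y‖ := norm_pos_iff.mpr hy0
  have hφy : φ y = ‖y‖ := hy y (by simpa using hρ')
  refine ⟨‖y‖⁻¹ • y, ρ' / 2 / ‖y‖, by positivity, ?_, hφ, ?_⟩
  · rw [map_smul, hφy, smul_eq_mul, inv_mul_cancel₀ hyn.ne']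
  · intro h hh hhn
    have e1 : ‖y‖⁻¹ • y + h = ‖y‖⁻¹ • (y + ‖y‖ • h) := by
      rw [smul_add, smul_smul, inv_mul_cancel₀ hyn.ne', one_smul]
    have e2 : φ (y + ‖y‖ • h) = ‖y + ‖y‖ • h‖ := by
      apply hy
      rw [add_sub_cancel_left, norm_smul, norm_norm]
      rw [le_div_iff₀ hyn] at hhn
      linarith
    rw [map_add, map_smul, hh, smul_zero, add_zero, hφy] at e2
    rw [e1, norm_smul, ← e2, norm_inv, norm_norm, inv_mul_cancel₀ hyn.ne']

/-- Second difference of the norm is small at some scale. -/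
def SmallDiff (v : X) (m : ℕ) : Set X :=
  {x | ∃ δ : ℝ, 0 < δ ∧ ‖x + δ • v‖ + ‖x - δ • v‖ - 2 * ‖x‖ < δ / (m + 1)}

theorem isOpen_smallDiff (v : X) (m : ℕ) : IsOpen (SmallDiff v m) := by
  have : SmallDiff v m = ⋃ δ ∈ Ioi (0 : ℝ),
      {x : X | ‖x + δ • v‖ + ‖x - δ • v‖ - 2 * ‖x‖ < δ / (m + 1)} := by
    ext x
    simp [SmallDiff]
  rw [this]
  refine isOpen_biUnion fun δ _ => ?_
  exact isOpen_lt (by fun_prop) continuous_const

theorem dense_smallDiff (hR : RayLin X) (v : X) (m : ℕ) : Dense (SmallDiff v m) := by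
  intro x
  rw [Metric.mem_closure_iff]
  intro η hη
  obtain ⟨ε, hε, d, hd⟩ := hR x v
  obtain ⟨t, ht0, htε, htη⟩ : ∃ t > 0, 2 * t ≤ ε ∧ t * ‖v‖ < η := by
    refine ⟨min (ε / 2) (η / (‖v‖ + 1)), by positivity, ?_, ?_⟩
    · have := min_le_left (ε / 2) (η / (‖v‖ + 1)); linarith
    · calc min (ε / 2) (η / (‖v‖ + 1)) * ‖v‖ ≤ η / (‖v‖ + 1) * ‖v‖ := by
            gcongr; exact min_le_right _ _
        _ = η * (‖v‖ / (‖v‖ + 1)) := by ring
        _ < η * 1 := by
            apply mul_lt_mul_of_pos_left _ hη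
            rw [div_lt_one (by positivity)]
            linarith
        _ = η := mul_one _
  refine ⟨x + t • v, ⟨t, ht0, ?_⟩, ?_⟩
  · have e1 : x + t • v + t • v = x + (2 * t) • v := by module
    have e2 : x + t • v - t • v = x + (0 : ℝ) • v := by module
    rw [e1, e2, hd (2 * t) (by positivity) htε, hd 0 le_rfl hε.le, hd t ht0.le (by linarith)]
    have : (0 : ℝ) < t / (m + 1) := by positivity
    linarith
  · rw [dist_eq_norm]
    have : x - (x + t • v) = -(t • v) := by abel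
    rw [this, norm_neg, norm_smul, Real.norm_of_nonneg ht0.le]
    exact htη

theorem second_diff_mono (x v : X) {t δ : ℝ} (ht : 0 < t) (htδ : t ≤ δ) :
    (‖x + t • v‖ + ‖x - t • v‖ - 2 * ‖x‖) * δ ≤ (‖x + δ • v‖ + ‖x - δ • v‖ - 2 * ‖x‖) * t := by
  have hδ : 0 < δ := ht.trans_le htδ
  have aux : ∀ w : X, δ * ‖x + t • w‖ ≤ (δ - t) * ‖x‖ + t * ‖x + δ • w‖ := by
    intro w
    have e : δ • (x + t • w) = (δ - t) • x + t • (x + δ • w) := by module
    have : ‖δ • (x + t • w)‖ ≤ ‖(δ - t) • x‖ + ‖t • (x + δ • w)‖ := by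
      rw [e]; exact norm_add_le _ _
    rwa [norm_smul, norm_smul, norm_smul, Real.norm_of_nonneg hδ.le,
      Real.norm_of_nonneg (by linarith), Real.norm_of_nonneg ht.le] at this
  have h1 := aux v
  have h2 := aux (-v)
  rw [smul_neg, smul_neg, ← sub_eq_add_neg, ← sub_eq_add_neg] at h2
  nlinarith

/-- At a generic point the norm is linear along each line near the point. -/
theorem generic_linear (hR : RayLin X) {u : ℕ → X} (hu : DenseRange u) {x : X}
    (hx : ∀ n m, x ∈ SmallDiff (u n) m) {φ : X →L[ℝ] ℝ} (hφ : ∀ y, φ y ≤ ‖y‖)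
    (hφx : φ x = ‖x‖) (v : X) :
    ∃ ε > (0 : ℝ), ∀ t : ℝ, 0 ≤ t → t ≤ ε → φ (x + t • v) = ‖x + t • v‖ := by
  obtain ⟨ε₁, hε₁, d₁, hd₁⟩ := hR x v
  obtain ⟨ε₂, hε₂, d₂, hd₂⟩ := hR x (-v)
  have hle : d₁ + d₂ ≤ 0 := by
    by_contra hcon
    push Not at hcon
    set η := d₁ + d₂ with hη
    obtain ⟨n, hn⟩ := hu.exists_dist_lt v (show 0 < η / 8 by positivity)
    rw [dist_eq_norm] at hn
    obtain ⟨m, hm⟩ := exists_nat_one_div_lt (show 0 < η / 4 by positivity)
    obtain ⟨δ, hδ, hlt⟩ := hx n m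
    have h1 : ‖x + δ • v‖ + ‖x - δ • v‖ - 2 * ‖x‖ < δ * (η / 2) := by
      have a1 : ‖x + δ • v‖ ≤ ‖x + δ • u n‖ + δ * ‖v - u n‖ := by
        have : x + δ • v = (x + δ • u n) + δ • (v - u n) := by module
        rw [this]
        refine (norm_add_le _ _).trans ?_
        rw [norm_smul, Real.norm_of_nonneg hδ.le]
      have a2 : ‖x - δ • v‖ ≤ ‖x - δ • u n‖ + δ * ‖v - u n‖ := by
        have : x - δ • v = (x - δ • u n) - δ • (v - u n) := by module
        rw [this]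
        refine (norm_sub_le _ _).trans ?_
        rw [norm_smul, Real.norm_of_nonneg hδ.le]
      have a3 : δ / (m + 1) < δ * (η / 4) := by
        have := mul_lt_mul_of_pos_left hm hδ
        calc δ / (m + 1) = δ * (1 / ((m : ℝ) + 1)) := by ring
          _ < _ := this
      have a4 : δ * ‖v - u n‖ < δ * (η / 8) := mul_lt_mul_of_pos_left hn hδ
      linarith
    set t := min δ (min ε₁ ε₂) with ht
    have ht0 : 0 < t := lt_min hδ (lt_min hε₁ hε₂)
    have htδ : t ≤ δ := min_le_left _ _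
    have ht1 : t ≤ ε₁ := (min_le_right _ _).trans (min_le_left _ _)
    have ht2 : t ≤ ε₂ := (min_le_right _ _).trans (min_le_right _ _)
    have h2 := second_diff_mono x v ht0 htδ
    have h3 := hd₁ t ht0.le ht1
    have h4 := hd₂ t ht0.le ht2
    rw [smul_neg, ← sub_eq_add_neg] at h4
    rw [h3, h4] at h2
    have h5 : t * η * δ ≤ (δ * (η / 2)) * t := by
      calc t * η * δ = (‖x‖ + t * d₁ + (‖x‖ + t * d₂) - 2 * ‖x‖) * δ := by rw [hη]; ring
        _ ≤ _ := h2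
        _ ≤ _ := mul_le_mul_of_nonneg_right h1.le ht0.le
    have h6 : 0 < t * η * δ := by positivity
    nlinarith
  have h1 : φ v ≤ d₁ := by
    have := hφ (x + ε₁ • v)
    rw [hd₁ ε₁ hε₁.le le_rfl, map_add, hφx, map_smul, smul_eq_mul] at this
    have : ε₁ * φ v ≤ ε₁ * d₁ := by linarith
    exact le_of_mul_le_mul_left this hε₁
  have h2 : -φ v ≤ d₂ := by
    have := hφ (x + ε₂ • (-v))
    rw [hd₂ ε₂ hε₂.le le_rfl, map_add, hφx, map_smul, smul_eq_mul, map_neg] at this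
    have : ε₂ * (-φ v) ≤ ε₂ * d₂ := by linarith
    exact le_of_mul_le_mul_left this hε₂
  have h3 : φ v = d₁ := by linarith
  refine ⟨ε₁, hε₁, fun t h0 ht => ?_⟩
  rw [hd₁ t h0 ht, map_add, map_smul, hφx, h3, smul_eq_mul]

theorem exists_near_of_core [CompleteSpace X] {φ : X →L[ℝ] ℝ} {x : X}
    (hcore : ∀ v, ∃ ε > (0 : ℝ), ∀ t : ℝ, 0 ≤ t → t ≤ ε → φ (x + t • v) = ‖x + t • v‖) :
    ∃ u, Near φ u := by
  let C : ℕ → Set X := fun n => {v | φ (x + ((n : ℝ) + 1)⁻¹ • v) = ‖x + ((n : ℝ) + 1)⁻¹ • v‖}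
  have hC : ∀ n, IsClosed (C n) := fun n => isClosed_eq (by fun_prop) (by fun_prop)
  have hU : ⋃ n, C n = univ := by
    rw [eq_univ_iff_forall]
    intro v
    obtain ⟨ε, hε, hh⟩ := hcore v
    obtain ⟨n, hn⟩ := exists_nat_one_div_lt hε
    rw [mem_iUnion]
    refine ⟨n, hh _ (by positivity) ?_⟩
    rw [one_div] at hn
    exact hn.le
  obtain ⟨n, v, hv⟩ := nonempty_interior_of_iUnion_of_closed hC hU
  rw [mem_interior_iff_mem_nhds, Metric.mem_nhds_iff] at hv
  obtain ⟨ρ, hρ, hball⟩ := hv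
  have hn : (0 : ℝ) < (n : ℝ) + 1 := by positivity
  refine ⟨x + ((n : ℝ) + 1)⁻¹ • v, ρ / ((n : ℝ) + 1), by positivity, fun u' hu' => ?_⟩
  have h1 : ((n : ℝ) + 1) • (u' - x) ∈ C n := by
    apply hball
    rw [mem_ball, dist_eq_norm]
    have e : ((n : ℝ) + 1) • (u' - x) - v
        = ((n : ℝ) + 1) • (u' - (x + ((n : ℝ) + 1)⁻¹ • v)) := by
      rw [smul_sub _ u' (x + _), smul_add, smul_smul, mul_inv_cancel₀ hn.ne', one_smul, smul_sub]
      abel
    rw [e, norm_smul, Real.norm_of_nonneg hn.le]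
    rw [lt_div_iff₀ hn] at hu'
    linarith
  have h2 : x + ((n : ℝ) + 1)⁻¹ • (((n : ℝ) + 1) • (u' - x)) = u' := by
    rw [smul_smul, inv_mul_cancel₀ hn.ne', one_smul]; abel
  have h3 : φ (x + ((n : ℝ) + 1)⁻¹ • (((n : ℝ) + 1) • (u' - x)))
      = ‖x + ((n : ℝ) + 1)⁻¹ • (((n : ℝ) + 1) • (u' - x))‖ := h1
  rwa [h2] at h3

/-- The set of points near which some functional computes the norm. -/
def Flat (X : Type*) [NormedAddCommGroup X] [NormedSpace ℝ X] : Set X :=
  {u | ∃ φ : X →L[ℝ] ℝ, (∀ x, φ x ≤ ‖x‖) ∧ Near φ u}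

theorem isOpen_flat : IsOpen (Flat X) := by
  rw [Metric.isOpen_iff]
  rintro u ⟨φ, hφ, ρ, hρ, h⟩
  refine ⟨ρ / 2, by positivity, fun w hw => ⟨φ, hφ, ρ / 2, by positivity, fun u' hu' => h u' ?_⟩⟩
  rw [mem_ball, dist_eq_norm] at hw
  have : u' - u = (u' - w) + (w - u) := by abel
  rw [this]
  exact lt_of_le_of_lt (norm_add_le _ _) (by linarith)

theorem dense_flat [CompleteSpace X] [TopologicalSpace.SeparableSpace X] (hR : RayLin X)
    {z : X} (hz : z ≠ 0) : Dense (Flat X) := by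
  set u := TopologicalSpace.denseSeq X with hu
  have hud : DenseRange u := TopologicalSpace.denseRange_denseSeq X
  have hG : Dense (⋂ p : ℕ × ℕ, SmallDiff (u p.1) p.2) :=
    dense_iInter_of_isOpen (fun p => isOpen_smallDiff _ _) (fun p => dense_smallDiff hR _ _)
  have : Nontrivial X := ⟨z, 0, hz⟩
  have hG' : Dense ((⋂ p : ℕ × ℕ, SmallDiff (u p.1) p.2) ∩ {0}ᶜ) := by
    apply hG.inter_of_isOpen_right _ isOpen_compl_singleton
    exact dense_compl_singleton 0
  intro y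
  rw [Metric.mem_closure_iff]
  intro η hη
  obtain ⟨x, hx, hxy⟩ := hG'.exists_dist_lt y (show 0 < η / 2 by positivity)
  have hx0 : x ≠ 0 := hx.2
  have hxm : ∀ n m, x ∈ SmallDiff (u n) m := fun n m => mem_iInter.mp hx.1 (n, m)
  obtain ⟨φ, hφ, hφx⟩ := exists_norming x hx0
  obtain ⟨w, ρ, hρ, hw⟩ := exists_near_of_core
    (fun v => generic_linear hR hud hxm hφ hφx v)
  -- move towards w
  obtain ⟨s, hs0, hs1, hsη⟩ : ∃ s > 0, s ≤ 1 ∧ s * ‖w - x‖ < η / 2 := by
    refine ⟨min 1 (η / 2 / (‖w - x‖ + 1)), by positivity, min_le_left _ _, ?_⟩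
    calc min 1 (η / 2 / (‖w - x‖ + 1)) * ‖w - x‖ ≤ η / 2 / (‖w - x‖ + 1) * ‖w - x‖ := by
          gcongr; exact min_le_right _ _
      _ = η / 2 * (‖w - x‖ / (‖w - x‖ + 1)) := by ring
      _ < η / 2 * 1 := by
          apply mul_lt_mul_of_pos_left _ (by positivity)
          rw [div_lt_one (by positivity)]
          linarith
      _ = η / 2 := mul_one _
  refine ⟨(1 - s) • x + s • w, ⟨φ, hφ, s * ρ, by positivity, fun u' hu' => ?_⟩, ?_⟩
  · have e1 : u' = (1 - s) • x + s • (w + s⁻¹ • (u' - ((1 - s) • x + s • w))) := by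
      rw [smul_add, smul_smul, mul_inv_cancel₀ hs0.ne', one_smul]; abel
    have e2 : φ (w + s⁻¹ • (u' - ((1 - s) • x + s • w)))
        = ‖w + s⁻¹ • (u' - ((1 - s) • x + s • w))‖ := by
      apply hw
      rw [add_sub_cancel_left, norm_smul, norm_inv, Real.norm_of_nonneg hs0.le,
        inv_mul_lt_iff₀ hs0]
      exact hu'
    apply le_antisymm (hφ _)
    calc ‖u'‖ = ‖(1 - s) • x + s • (w + s⁻¹ • (u' - ((1 - s) • x + s • w)))‖ := by rw [← e1]
      _ ≤ (1 - s) * ‖x‖ + s * ‖w + s⁻¹ • (u' - ((1 - s) • x + s • w))‖ := by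
          refine (norm_add_le _ _).trans ?_
          rw [norm_smul, norm_smul, Real.norm_of_nonneg hs0.le,
            Real.norm_of_nonneg (by linarith)]
      _ = (1 - s) * φ x + s * φ (w + s⁻¹ • (u' - ((1 - s) • x + s • w))) := by rw [hφx, e2]
      _ = φ ((1 - s) • x + s • (w + s⁻¹ • (u' - ((1 - s) • x + s • w)))) := by
          rw [map_add φ ((1 - s) • x), map_smul, map_smul, smul_eq_mul, smul_eq_mul]
      _ = φ u' := by rw [← e1]
  · have e1 : y - ((1 - s) • x + s • w) = (y - x) - s • (w - x) := by module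
    rw [dist_eq_norm, e1]
    refine lt_of_le_of_lt (norm_sub_le _ _) ?_
    rw [norm_smul, Real.norm_of_nonneg hs0.le]
    rw [dist_eq_norm] at hxy
    linarith

theorem bdry_of_separable [CompleteSpace X] [TopologicalSpace.SeparableSpace X]
    (hR : RayLin X) : Bdry X := by
  intro z hz
  have hz0 : z ≠ 0 := by intro h; rw [h, norm_zero] at hz; norm_num at hz
  by_contra hcon
  have hO := isOpen_flat (X := X)
  have hD := dense_flat hR hz0
  -- initial rays avoid the flat set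
  have hray : ∀ v : X, ∃ ε > (0 : ℝ), ∀ t : ℝ, 0 < t → t < ε → z + t • v ∉ Flat X := by
    intro v
    obtain ⟨ε, hε, d, hd⟩ := hR z v
    refine ⟨ε, hε, fun t ht0 htε hmem => ?_⟩
    obtain ⟨φ, hφ, hnear⟩ := hmem
    have h1 : φ (z + t • v) = ‖z + t • v‖ := by
      obtain ⟨ρ, hρ, h⟩ := hnear
      exact h _ (by simpa using hρ)
    rw [hd t ht0.le htε.le, map_add, map_smul, smul_eq_mul] at h1
    have h2 := hφ z
    have h3 := hφ (z + ε • v)
    rw [hd ε hε.le le_rfl, map_add, map_smul, smul_eq_mul] at h3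
    have h4 : φ z = ‖z‖ := by
      apply le_antisymm h2
      have a1 : t * (φ v - d) = ‖z‖ - φ z := by linarith
      have a2 : ε * (φ v - d) ≤ ‖z‖ - φ z := by linarith
      have a3 : 0 ≤ φ v - d := by
        by_contra hneg
        push Not at hneg
        nlinarith
      have a4 : (ε - t) * (φ v - d) ≤ 0 := by linarith
      have a5 : φ v - d ≤ 0 := by
        by_contra hpos
        push Not at hpos
        have := mul_pos (sub_pos.mpr htε) hpos
        linarith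
      have a6 : φ v - d = 0 := le_antisymm a5 a3
      rw [a6, mul_zero] at a1
      linarith
    obtain ⟨c, r, hf⟩ := facet_of_near hφ hz0 hnear
    exact hcon ⟨φ, c, r, hf, by rw [h4, hz]⟩
  let C : ℕ → Set X := fun n => {v | ∀ t : ℝ, 0 < t → t < ((n : ℝ) + 1)⁻¹ → z + t • v ∉ Flat X}
  have hC : ∀ n, IsClosed (C n) := by
    intro n
    have : C n = ⋂ (t : ℝ) (_ : 0 < t) (_ : t < ((n : ℝ) + 1)⁻¹),
        (fun v => z + t • v) ⁻¹' (Flat X)ᶜ := by
      ext v
      simp [C]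
    rw [this]
    refine isClosed_iInter fun t => isClosed_iInter fun _ => isClosed_iInter fun _ => ?_
    exact hO.isClosed_compl.preimage (by fun_prop)
  have hU : ⋃ n, C n = univ := by
    rw [eq_univ_iff_forall]
    intro v
    obtain ⟨ε, hε, hh⟩ := hray v
    obtain ⟨n, hn⟩ := exists_nat_one_div_lt hε
    rw [mem_iUnion]
    refine ⟨n, fun t h0 h1 => hh t h0 (h1.trans ?_)⟩
    rw [one_div] at hn
    exact hn
  obtain ⟨n, v, hv⟩ := nonempty_interior_of_iUnion_of_closed hC hU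
  rw [mem_interior_iff_mem_nhds, Metric.mem_nhds_iff] at hv
  obtain ⟨ρ, hρ, hball⟩ := hv
  have hn : (0 : ℝ) < (n : ℝ) + 1 := by positivity
  set t : ℝ := ((n : ℝ) + 1)⁻¹ / 2 with ht
  have ht0 : 0 < t := by positivity
  have ht1 : t < ((n : ℝ) + 1)⁻¹ := by
    have : 0 < ((n : ℝ) + 1)⁻¹ := by positivity
    linarith
  obtain ⟨w, hw, hwd⟩ := hD.exists_dist_lt (z + t • v) (show 0 < t * ρ by positivity)
  have h1 : t⁻¹ • (w - z) ∈ C n := by
    apply hball
    rw [mem_ball, dist_eq_norm]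
    have e : t⁻¹ • (w - z) - v = t⁻¹ • (w - (z + t • v)) := by
      rw [smul_sub _ w (z + _), smul_add, smul_smul, inv_mul_cancel₀ ht0.ne', one_smul, smul_sub]
      abel
    rw [e, norm_smul, norm_inv, Real.norm_of_nonneg ht0.le, inv_mul_lt_iff₀ ht0]
    rw [dist_eq_norm, norm_sub_rev] at hwd
    exact hwd
  have h2 := h1 t ht0 ht1
  apply h2
  have e : z + t • t⁻¹ • (w - z) = w := by
    rw [smul_smul, mul_inv_cancel₀ ht0.ne', one_smul]; abel
  rw [e]
  exact hw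

end Vale.Agent.H7Tingley
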