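import Vale.Agent.Lib.H7Tingley.Baire

/-! The positively homogeneous extension and the reduction to separable subspaces. -/

namespace Vale.Agent.H7Tingley

open Metric

variable {X Y : Type*} [NormedAddCommGroup X] [NormedSpace ℝ X]
  [NormedAddCommGroup Y] [NormedSpace ℝ Y]

namespace SphIso

variable (F : SphIso X Y)

/-- The positively homogeneous extension. -/
noncomputable def ext (x : X) : Y := ‖x‖ • F.f (‖x‖⁻¹ • x)

theorem norm_inv_smul {Z : Type*} [NormedAddCommGroup Z] [NormedSpace ℝ Z] {x : Z} (hx : x ≠ 0) :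
    ‖‖x‖⁻¹ • x‖ = 1 := by
  rw [norm_smul, norm_inv, norm_norm, inv_mul_cancel₀ (norm_ne_zero_iff.mpr hx)]

theorem ext_zero : F.ext 0 = 0 := by simp [ext]

theorem norm_ext (x : X) : ‖F.ext x‖ = ‖x‖ := by
  by_cases hx : x = 0
  · rw [hx, ext_zero, norm_zero, norm_zero]
  · rw [ext, norm_smul, norm_norm, F.nf _ (norm_inv_smul hx), mul_one]

theorem ext_unit {x : X} (hx : ‖x‖ = 1) : F.ext x = F.f x := by
  rw [ext, hx, inv_one, one_smul, one_smul]

theorem ext_symm_ext (x : X) : F.symm.ext (F.ext x) = x := by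
  by_cases hx : x = 0
  · rw [hx, ext_zero, ext_zero]
  · have hn : ‖x‖ ≠ 0 := norm_ne_zero_iff.mpr hx
    rw [ext, norm_ext]
    have h1 : ‖x‖⁻¹ • F.ext x = F.f (‖x‖⁻¹ • x) := by
      rw [ext, smul_smul, inv_mul_cancel₀ hn, one_smul]
    rw [h1]
    change ‖x‖ • F.g (F.f (‖x‖⁻¹ • x)) = x
    rw [F.gf _ (norm_inv_smul hx), smul_smul, mul_inv_cancel₀ hn, one_smul]

theorem symm_symm_ext (y : Y) : F.ext (F.symm.ext y) = y := F.symm.ext_symm_ext y

theorem ext_lip (x y : X) : ‖F.ext x - F.ext y‖ ≤ 3 * ‖x - y‖ := by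
  by_cases hx : x = 0
  · rw [hx, ext_zero, zero_sub, zero_sub, norm_neg, norm_neg, norm_ext]
    linarith [norm_nonneg y]
  by_cases hy : y = 0
  · rw [hy, ext_zero, sub_zero, sub_zero, norm_ext]
    linarith [norm_nonneg x]
  have hxn : ‖x‖ ≠ 0 := norm_ne_zero_iff.mpr hx
  have hyn : ‖y‖ ≠ 0 := norm_ne_zero_iff.mpr hy
  have e1 : F.ext x - F.ext y = (‖x‖ - ‖y‖) • F.f (‖x‖⁻¹ • x) +
      ‖y‖ • (F.f (‖x‖⁻¹ • x) - F.f (‖y‖⁻¹ • y)) := by
    rw [ext, ext]; module
  have e2 : ‖y‖ • (‖x‖⁻¹ • x - ‖y‖⁻¹ • y) = (‖y‖ - ‖x‖) • (‖x‖⁻¹ • x) + (x - y) := by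
    rw [smul_sub, smul_smul ‖y‖ ‖y‖⁻¹, mul_inv_cancel₀ hyn, one_smul, sub_smul,
      smul_smul ‖x‖ ‖x‖⁻¹, mul_inv_cancel₀ hxn, one_smul]
    abel
  have h3 : |‖x‖ - ‖y‖| ≤ ‖x - y‖ := abs_norm_sub_norm_le x y
  have h4 : ‖‖y‖ • (‖x‖⁻¹ • x - ‖y‖⁻¹ • y)‖ ≤ 2 * ‖x - y‖ := by
    rw [e2]
    refine (norm_add_le _ _).trans ?_
    rw [norm_smul, norm_inv_smul hx, mul_one, Real.norm_eq_abs, abs_sub_comm]
    linarith
  rw [e1]
  refine (norm_add_le _ _).trans ?_
  rw [norm_smul, norm_smul, F.nf _ (norm_inv_smul hx), mul_one, Real.norm_eq_abs,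
    F.iso _ _ (norm_inv_smul hx) (norm_inv_smul hy), ← norm_smul, ]
  linarith

theorem ext_continuous : Continuous F.ext := by
  have : LipschitzWith 3 F.ext := by
    apply LipschitzWith.of_dist_le_mul
    intro x y
    rw [dist_eq_norm, dist_eq_norm]
    exact F.ext_lip x y
  exact this.continuous

end SphIso

/-- Closing a countable set under countably many binary operations. -/
theorem exists_countable_closed {α ι : Type*} [Countable ι] (op : ι → α → α → α) (A : Set α)
    (hA : A.Countable) :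
    ∃ B : Set α, A ⊆ B ∧ B.Countable ∧ ∀ i, ∀ a ∈ B, ∀ b ∈ B, op i a b ∈ B := by
  let S : ℕ → Set α := fun n =>
    Nat.rec A (fun _ C => C ∪ ⋃ i, Set.image2 (op i) C C) n
  have hS1 : ∀ n, S (n + 1) = S n ∪ ⋃ i, Set.image2 (op i) (S n) (S n) := fun n => rfl
  have hmono : Monotone S := by
    apply monotone_nat_of_le_succ
    intro n
    rw [hS1]
    exact Set.subset_union_left
  have hc : ∀ n, (S n).Countable := by
    intro n
    induction n with
    | zero => exact hA
    | succ n ih =>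
      rw [hS1]
      exact ih.union (Set.countable_iUnion fun i => ih.image2 ih _)
  refine ⟨⋃ n, S n, ?_, Set.countable_iUnion hc, ?_⟩
  · exact Set.subset_iUnion S 0
  · intro i a ha b hb
    obtain ⟨n, hn⟩ := Set.mem_iUnion.mp ha
    obtain ⟨m, hm⟩ := Set.mem_iUnion.mp hb
    apply Set.mem_iUnion.mpr
    refine ⟨max n m + 1, ?_⟩
    rw [hS1]
    right
    apply Set.mem_iUnion.mpr
    exact ⟨i, Set.mem_image2_of_mem (hmono (le_max_left _ _) hn) (hmono (le_max_right _ _) hm)⟩

/-- The closure of a set stable under rational combinations is a subspace. -/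
theorem exists_submodule {E : Type*} [NormedAddCommGroup E] [NormedSpace ℝ E] (B : Set E)
    (h0 : (0 : E) ∈ B) (h : ∀ q : ℚ, ∀ a ∈ B, ∀ b ∈ B, a + (q : ℝ) • b ∈ B) :
    ∃ S : Submodule ℝ E, (S : Set E) = closure B := by
  have hadd : ∀ a ∈ B, ∀ b ∈ B, a + b ∈ B := by
    intro a ha b hb
    have := h 1 a ha b hb
    simpa using this
  refine ⟨{ carrier := closure B
            add_mem' := ?_
            zero_mem' := subset_closure h0
            smul_mem' := ?_ }, rfl⟩
  · intro a b ha hb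
    exact map_mem_closure₂ continuous_add ha hb hadd
  · intro c x hx
    have hcl : c ∈ closure (Set.range ((↑) : ℚ → ℝ)) := Rat.denseRange_cast c
    refine map_mem_closure₂ (f := fun (c : ℝ) (x : E) => c • x) continuous_smul hcl hx ?_
    rintro _ ⟨q, rfl⟩ b hb
    have := h q 0 h0 b hb
    simpa using this

theorem RayLin.submodule (hR : RayLin X) (S : Submodule ℝ X) : RayLin S := by
  intro x v
  obtain ⟨ε, hε, d, hd⟩ := hR x v
  exact ⟨ε, hε, d, fun t h0 h1 => hd t h0 h1⟩

/-- The extension is additive and homogeneous. -/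
theorem ext_linear [CompleteSpace X] (hR : RayLin X) (F : SphIso X Y) (x y : X) (c : ℝ) :
    F.ext (x + y) = F.ext x + F.ext y ∧ F.ext (c • x) = c • F.ext x := by
  let op : ℚ × Bool → X → X → X := fun p a b =>
    if p.2 then a + (p.1 : ℝ) • b else F.symm.ext (F.ext a + (p.1 : ℝ) • F.ext b)
  obtain ⟨B, hAB, hBc, hBop⟩ := exists_countable_closed op {x, y, 0}
    (Set.Finite.countable (by simp))
  have hxB : x ∈ B := hAB (by simp)
  have hyB : y ∈ B := hAB (by simp)
  have h0B : (0 : X) ∈ B := hAB (by simp)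
  have hB1 : ∀ q : ℚ, ∀ a ∈ B, ∀ b ∈ B, a + (q : ℝ) • b ∈ B := by
    intro q a ha b hb
    have := hBop (q, true) a ha b hb
    simpa [op] using this
  have hB2 : ∀ q : ℚ, ∀ a ∈ B, ∀ b ∈ B, F.symm.ext (F.ext a + (q : ℝ) • F.ext b) ∈ B := by
    intro q a ha b hb
    have := hBop (q, false) a ha b hb
    simpa [op] using this
  obtain ⟨X₀, hX₀⟩ := exists_submodule B h0B hB1
  obtain ⟨Y₀, hY₀⟩ := exists_submodule (F.ext '' B) ⟨0, h0B, F.ext_zero⟩ (by
    rintro q _ ⟨a, ha, rfl⟩ _ ⟨b, hb, rfl⟩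
    exact ⟨_, hB2 q a ha b hb, F.symm_symm_ext _⟩)
  have hfm : ∀ x ∈ X₀, F.ext x ∈ Y₀ := by
    intro x hx
    have hx' : x ∈ closure B := by rw [← hX₀]; exact hx
    have : F.ext x ∈ closure (F.ext '' B) :=
      map_mem_closure F.ext_continuous hx' (fun b hb => Set.mem_image_of_mem _ hb)
    rw [← hY₀] at this
    exact this
  have hgm : ∀ y ∈ Y₀, F.symm.ext y ∈ X₀ := by
    intro y hy
    have hy' : y ∈ closure (F.ext '' B) := by rw [← hY₀]; exact hy
    have : F.symm.ext y ∈ closure B := by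
      refine map_mem_closure F.symm.ext_continuous hy' ?_
      rintro _ ⟨b, hb, rfl⟩
      rw [F.ext_symm_ext]
      exact hb
    rw [← hX₀] at this
    exact this
  let F₀ : SphIso X₀ Y₀ :=
    { f := fun x => ⟨F.ext x, hfm x x.2⟩
      g := fun y => ⟨F.symm.ext y, hgm y y.2⟩
      nf := fun x hx => by
        change ‖F.ext (x : X)‖ = 1
        rw [F.norm_ext]; exact hx
      ng := fun y hy => by
        change ‖F.symm.ext (y : Y)‖ = 1
        rw [F.symm.norm_ext]; exact hy
      gf := fun x hx => by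
        apply Subtype.ext
        exact F.ext_symm_ext (x : X)
      fg := fun y hy => by
        apply Subtype.ext
        exact F.symm_symm_ext (y : Y)
      iso := fun x x' hx hx' => by
        change ‖F.ext (x : X) - F.ext (x' : X)‖ = ‖(x : X) - (x' : X)‖
        have hx1 : ‖(x : X)‖ = 1 := hx
        have hx2 : ‖(x' : X)‖ = 1 := hx'
        rw [F.ext_unit hx1, F.ext_unit hx2]
        exact F.iso _ _ hx1 hx2 }
  have hcl : IsClosed (X₀ : Set X) := by rw [hX₀]; exact isClosed_closure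
  haveI : CompleteSpace X₀ := hcl.completeSpace_coe
  haveI : TopologicalSpace.SeparableSpace X₀ := by
    have : TopologicalSpace.IsSeparable (X₀ : Set X) := by
      rw [hX₀]; exact hBc.isSeparable.closure
    exact this.separableSpace
  obtain ⟨T, hT⟩ := linear_of_bdry (hR.submodule X₀) (bdry_of_separable (hR.submodule X₀)) F₀
  have hT' : ∀ z : X₀, (T z : Y) = F.ext (z : X) := by
    intro z
    by_cases hz : z = 0
    · rw [hz, map_zero]
      change (0 : Y) = F.ext 0
      rw [F.ext_zero]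
    · have hn : ‖z‖ ≠ 0 := norm_ne_zero_iff.mpr hz
      have h1 := hT (‖z‖⁻¹ • z) (SphIso.norm_inv_smul hz)
      have h2 : T z = ‖z‖ • T (‖z‖⁻¹ • z) := by
        rw [map_smul, smul_smul, mul_inv_cancel₀ hn, one_smul]
      rw [h2, h1]
      change ‖(z : X)‖ • F.ext (‖(z : X)‖⁻¹ • (z : X)) = F.ext (z : X)
      have hz' : (z : X) ≠ 0 := fun h => hz (Subtype.ext h)
      rw [F.ext_unit (SphIso.norm_inv_smul hz')]
      rfl
  have hxX : x ∈ X₀ := by
    have : x ∈ closure B := subset_closure hxB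
    rw [← hX₀] at this; exact this
  have hyX : y ∈ X₀ := by
    have : y ∈ closure B := subset_closure hyB
    rw [← hX₀] at this; exact this
  constructor
  · have h1 := hT' (⟨x, hxX⟩ + ⟨y, hyX⟩)
    rw [map_add, Submodule.coe_add, hT', hT'] at h1
    exact h1.symm
  · have h1 := hT' (c • ⟨x, hxX⟩)
    rw [map_smul, Submodule.coe_smul, hT'] at h1
    exact h1.symm

/-- The linear isometry extending a sphere isometry. -/
theorem exists_isometryEquiv [CompleteSpace X] (hR : RayLin X) (F : SphIso X Y) :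
    ∃ T : X ≃ₗᵢ[ℝ] Y, ∀ x, ‖x‖ = 1 → T x = F.f x := by
  let L : X ≃ₗ[ℝ] Y :=
    { toFun := F.ext
      map_add' := fun x y => (ext_linear hR F x y 0).1
      map_smul' := fun c x => (ext_linear hR F x 0 c).2
      invFun := F.symm.ext
      left_inv := F.ext_symm_ext
      right_inv := F.symm_symm_ext }
  refine ⟨{ L with norm_map' := F.norm_ext }, fun x hx => ?_⟩
  exact F.ext_unit hx

end Vale.Agent.H7Tingley
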