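import Mathlib

/-! Facets of unit spheres and surjective isometries between unit spheres: part 1. -/

namespace Vale.Agent.H7Tingley

open Metric

variable {X Y : Type*} [NormedAddCommGroup X] [NormedSpace ℝ X]
  [NormedAddCommGroup Y] [NormedSpace ℝ Y]

/-- A surjective isometry between unit spheres, presented by two functions on the whole spaces. -/
structure SphIso (X Y : Type*) [NormedAddCommGroup X] [NormedSpace ℝ X]
    [NormedAddCommGroup Y] [NormedSpace ℝ Y] where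
  f : X → Y
  g : Y → X
  nf : ∀ x, ‖x‖ = 1 → ‖f x‖ = 1
  ng : ∀ y, ‖y‖ = 1 → ‖g y‖ = 1
  gf : ∀ x, ‖x‖ = 1 → g (f x) = x
  fg : ∀ y, ‖y‖ = 1 → f (g y) = y
  iso : ∀ x x', ‖x‖ = 1 → ‖x'‖ = 1 → ‖f x - f x'‖ = ‖x - x'‖

namespace SphIso

variable (F : SphIso X Y)

theorem iso' (y y' : Y) (hy : ‖y‖ = 1) (hy' : ‖y'‖ = 1) : ‖F.g y - F.g y'‖ = ‖y - y'‖ := by
  rw [← F.iso _ _ (F.ng y hy) (F.ng y' hy'), F.fg y hy, F.fg y' hy']

/-- The inverse isometry. -/
def symm : SphIso Y X where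
  f := F.g
  g := F.f
  nf := F.ng
  ng := F.nf
  gf := F.fg
  fg := F.gf
  iso := F.iso'

end SphIso

/-- `c` is a relative interior point of the facet cut out by the functional `φ`. -/
structure Facet (φ : X →L[ℝ] ℝ) (c : X) (r : ℝ) : Prop where
  pos : 0 < r
  val : φ c = 1
  le : ∀ x, φ x ≤ ‖x‖
  ball : ∀ h, φ h = 0 → ‖h‖ ≤ r → ‖c + h‖ ≤ 1

theorem Facet.norm {φ : X →L[ℝ] ℝ} {c : X} {r : ℝ} (h : Facet φ c r) : ‖c‖ = 1 := by
  apply le_antisymm
  · have := h.ball 0 (by simp) (by simpa using h.pos.le)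
    simpa using this
  · have := h.le c
    rwa [h.val] at this

theorem Facet.mono {φ : X →L[ℝ] ℝ} {c : X} {r r' : ℝ} (h : Facet φ c r) (h0 : 0 < r')
    (hr : r' ≤ r) : Facet φ c r' :=
  ⟨h0, h.val, h.le, fun k hk hk' => h.ball k hk (hk'.trans hr)⟩

/-- A norming functional. -/
theorem exists_norming (v : X) (hv : v ≠ 0) :
    ∃ ψ : X →L[ℝ] ℝ, (∀ x, ψ x ≤ ‖x‖) ∧ ψ v = ‖v‖ := by
  obtain ⟨ψ, h1, h2⟩ := exists_dual_vector ℝ v (norm_ne_zero_iff.mpr hv)
  refine ⟨ψ, fun x => ?_, by simpa using h2⟩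
  have := ψ.le_opNorm x
  rw [h1, one_mul] at this
  exact (le_abs_self _).trans this

/-- A norming functional at a sum of two unit vectors of norm two. -/
theorem exists_norming_two {a b : X} (ha : ‖a‖ = 1) (hb : ‖b‖ = 1) (hab : ‖a + b‖ = 2) :
    ∃ ψ : X →L[ℝ] ℝ, (∀ x, ψ x ≤ ‖x‖) ∧ ψ a = 1 ∧ ψ b = 1 := by
  have hne : a + b ≠ 0 := by
    intro h
    rw [h, norm_zero] at hab
    norm_num at hab
  obtain ⟨ψ, h1, h2⟩ := exists_norming (a + b) hne
  rw [hab, map_add] at h2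
  have h3 := h1 a
  have h4 := h1 b
  rw [ha] at h3
  rw [hb] at h4
  exact ⟨ψ, h1, by linarith, by linarith⟩

theorem norm_eq_two {a b : X} (ha : ‖a‖ = 1) (hb : ‖b‖ = 1) {ψ : X →L[ℝ] ℝ}
    (hψ : ∀ x, ψ x ≤ ‖x‖) (h1 : ψ a = 1) (h2 : ψ b = 1) : ‖a + b‖ = 2 := by
  apply le_antisymm
  · calc ‖a + b‖ ≤ ‖a‖ + ‖b‖ := norm_add_le _ _
      _ = 2 := by rw [ha, hb]; norm_num
  · have := hψ (a + b)
    rw [map_add, h1, h2] at this
    linarith

/-- Uniqueness of the norming functional at an interior point of a facet. -/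
theorem Facet.unique {φ : X →L[ℝ] ℝ} {c : X} {r : ℝ} (h : Facet φ c r) {ψ : X →L[ℝ] ℝ}
    (hψ : ∀ x, ψ x ≤ ‖x‖) (h1 : ψ c = 1) : ψ = φ := by
  have hker : ∀ k, φ k = 0 → ψ k = 0 := by
    have hle : ∀ k, φ k = 0 → ψ k ≤ 0 := by
      intro k hk
      by_cases hk0 : k = 0
      · simp [hk0]
      have hkn : 0 < ‖k‖ := norm_pos_iff.mpr hk0
      have hb := h.ball ((r / ‖k‖) • k) (by simp [hk])
        (by rw [norm_smul, Real.norm_of_nonneg (div_nonneg h.pos.le hkn.le),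
          div_mul_cancel₀ _ hkn.ne'])
      have := (hψ _).trans hb
      rw [map_add, h1, map_smul, smul_eq_mul] at this
      have hq : 0 < r / ‖k‖ := div_pos h.pos hkn
      by_contra hcon
      push Not at hcon
      have := mul_pos hq hcon
      linarith
    intro k hk
    apply le_antisymm (hle k hk)
    have := hle (-k) (by simp [hk])
    rw [map_neg] at this
    linarith
  ext x
  have hx : x = φ x • c + (x - φ x • c) := by abel
  have h2 : ψ (x - φ x • c) = 0 := hker _ (by simp [h.val])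
  calc ψ x = ψ (φ x • c + (x - φ x • c)) := by rw [← hx]
    _ = φ x := by rw [map_add, h2, map_smul, h1]; simp

theorem Facet.star {φ : X →L[ℝ] ℝ} {c : X} {r : ℝ} (h : Facet φ c r) {y : X} (hy : ‖y‖ = 1) :
    ‖y + c‖ = 2 ↔ φ y = 1 := by
  constructor
  · intro h2
    obtain ⟨ψ, h3, h4, h5⟩ := exists_norming_two hy h.norm h2
    have := h.unique h3 h5
    rwa [this] at h4
  · intro h2
    exact norm_eq_two hy h.norm h.le h2 h.val

/-- Points of the sphere near an interior point of a facet are in the facet. -/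
theorem Facet.near {φ : X →L[ℝ] ℝ} {c : X} {r : ℝ} (h : Facet φ c r) :
    ∃ ρ > 0, ∀ x, ‖x‖ = 1 → ‖x - c‖ < ρ → φ x = 1 := by
  obtain ⟨r₁, hr₁, hr₁r, hr₁1⟩ : ∃ r₁ > 0, r₁ ≤ r ∧ r₁ ≤ 1 :=
    ⟨min r 1, lt_min h.pos one_pos, min_le_left _ _, min_le_right _ _⟩
  refine ⟨r₁ / 4, by positivity, fun x hx hxc => ?_⟩
  have h1 : |φ x - 1| ≤ ‖x - c‖ := by
    rw [← h.val, ← map_sub]
    apply abs_le.mpr
    constructor
    · have := h.le (-(x - c))
      rw [map_neg, norm_neg] at this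
      linarith
    · exact h.le _
  have h2 : 1 - r₁ / 4 < φ x := by
    have := (abs_le.mp h1).1
    linarith
  have h2' : φ x ≤ 1 := by rw [← hx]; exact h.le x
  have hpos : 0 < φ x := by linarith
  -- the point x / φ x
  have hk : ‖(φ x)⁻¹ • x - c‖ ≤ r := by
    have e1 : (φ x)⁻¹ • x - c = (φ x)⁻¹ • ((x - c) + (1 - φ x) • c) := by
      rw [smul_add, smul_sub, smul_smul]
      have : (φ x)⁻¹ * (1 - φ x) = (φ x)⁻¹ - 1 := by field_simp
      rw [this, sub_smul, one_smul]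
      abel
    rw [e1, norm_smul, norm_inv, Real.norm_of_nonneg hpos.le]
    have e2 : ‖(x - c) + (1 - φ x) • c‖ ≤ r₁ / 4 + r₁ / 4 := by
      refine (norm_add_le _ _).trans (add_le_add hxc.le ?_)
      rw [norm_smul, h.norm, mul_one, Real.norm_of_nonneg (by linarith)]
      linarith
    have e3 : (φ x)⁻¹ ≤ 2 := by
      rw [inv_le_comm₀ hpos (by norm_num)]
      linarith
    calc (φ x)⁻¹ * ‖(x - c) + (1 - φ x) • c‖ ≤ 2 * (r₁ / 4 + r₁ / 4) := by
          apply mul_le_mul e3 e2 (norm_nonneg _) (by norm_num)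
      _ ≤ r := by linarith
  have h3 := h.ball ((φ x)⁻¹ • x - c) (by
    rw [map_sub, map_smul, h.val, smul_eq_mul, inv_mul_cancel₀ hpos.ne', sub_self]) hk
  rw [add_sub_cancel, norm_smul, norm_inv, Real.norm_of_nonneg hpos.le, hx, mul_one] at h3
  have h4 : 1 ≤ φ x := by
    rwa [inv_le_one₀ hpos] at h3
  linarith

section dualFacet

variable (F : SphIso X Y) {φ : X →L[ℝ] ℝ} {c : X} {r : ℝ}

theorem memE (h : Facet φ c r) {w : Y} (hw : ‖w‖ = 1) :
    ‖w - F.f (-c)‖ = 2 ↔ φ (F.g w) = 1 := by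
  have hc : ‖-c‖ = 1 := by rw [norm_neg]; exact h.norm
  have : ‖w - F.f (-c)‖ = ‖F.g w + c‖ := by
    rw [← F.iso' w (F.f (-c)) hw (F.nf _ hc), F.gf _ hc, sub_neg_eq_add]
  rw [this]
  exact h.star (F.ng w hw)

theorem memD (h : Facet φ c r) {w : Y} (hw : ‖w‖ = 1) :
    ‖w + F.f c‖ = 2 ↔ φ (-F.g (-w)) = 1 := by
  have hc : ‖c‖ = 1 := h.norm
  have hw' : ‖-w‖ = 1 := by rw [norm_neg]; exact hw
  have : ‖w + F.f c‖ = ‖-F.g (-w) + c‖ := by
    have e1 : ‖w + F.f c‖ = ‖F.f c - (-w)‖ := by rw [sub_neg_eq_add, add_comm]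
    rw [e1, ← F.iso' (F.f c) (-w) (F.nf _ hc) hw', F.gf _ hc, add_comm, ← sub_eq_add_neg]
  rw [this]
  exact h.star (by rw [norm_neg]; exact F.ng _ hw')

theorem crossED (h : Facet φ c r) {e d : Y} (he : ‖e‖ = 1) (hd : ‖d‖ = 1)
    (h1 : φ (F.g e) = 1) (h2 : φ (-F.g (-d)) = 1) : ‖d + e‖ = 2 := by
  have hd' : ‖-d‖ = 1 := by rw [norm_neg]; exact hd
  have e1 : ‖d + e‖ = ‖e - (-d)‖ := by rw [sub_neg_eq_add, add_comm]
  rw [e1, ← F.iso' e (-d) he hd', sub_eq_add_neg]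
  exact norm_eq_two (F.ng _ he) (by rw [norm_neg]; exact F.ng _ hd') h.le h1 h2

theorem E_iff_D (h : Facet φ c r) {w : Y} (hw : ‖w‖ = 1) :
    φ (F.g w) = 1 ↔ φ (-F.g (-w)) = 1 := by
  have hc : ‖c‖ = 1 := h.norm
  have hc' : ‖-c‖ = 1 := by rw [norm_neg]; exact h.norm
  constructor
  · intro h1
    have he0 : φ (-F.g (-F.f c)) = 1 := by
      rw [← memD F h (F.nf _ hc), ← two_smul ℝ, norm_smul, F.nf _ hc]
      norm_num
    have := crossED F h hw (F.nf _ hc) h1 he0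
    rw [← memD F h hw, add_comm]
    exact this
  · intro h1
    have hd0n : ‖-F.f (-c)‖ = 1 := by rw [norm_neg]; exact F.nf _ hc'
    have hd0 : φ (F.g (-F.f (-c))) = 1 := by
      rw [← memE F h hd0n, ← neg_add', ← two_smul ℝ, norm_neg, norm_smul, F.nf _ hc']
      norm_num
    have := crossED F h hd0n hw hd0 h1
    rw [← memE F h hw, sub_eq_add_neg]
    exact this

/-- Three points of the image face have a common norming functional. -/
theorem triple (h : Facet φ c r) {a b : Y} (ha : ‖a‖ = 1) (hb : ‖b‖ = 1)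
    (h1 : φ (F.g a) = 1) (h2 : φ (F.g b) = 1) :
    ∃ ψ : Y →L[ℝ] ℝ, (∀ y, ψ y ≤ ‖y‖) ∧ ψ a = 1 ∧ ψ b = 1 ∧ ψ (F.f c) = 1 := by
  have hc : ‖c‖ = 1 := h.norm
  have hfc := F.nf c hc
  have ha2 : ‖a + F.f c‖ = 2 := (memD F h ha).mpr ((E_iff_D F h ha).mp h1)
  obtain ⟨χ, hχ, hχa, hχc⟩ := exists_norming_two ha hfc ha2
  set m : Y := (1 / 2 : ℝ) • (a + F.f c) with hm
  have hm1 : ‖m‖ = 1 := by
    rw [hm, norm_smul, ha2]; norm_num
  have hχm : χ m = 1 := by
    rw [hm, map_smul, map_add, hχa, hχc]; norm_num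
  have hmD : φ (-F.g (-m)) = 1 := by
    rw [← memD F h hm1]
    exact norm_eq_two hm1 hfc hχ hχm hχc
  have hmb : ‖m + b‖ = 2 := crossED F h hb hm1 h2 hmD
  obtain ⟨ψ, hψ, hψm, hψb⟩ := exists_norming_two hm1 hb hmb
  have e1 : ψ m = (ψ a + ψ (F.f c)) / 2 := by
    rw [hm, map_smul, map_add, smul_eq_mul]; ring
  have e2 := hψ a
  have e3 := hψ (F.f c)
  rw [ha] at e2
  rw [hfc] at e3
  rw [e1] at hψm
  exact ⟨ψ, hψ, by linarith, hψb, by linarith⟩

theorem nearY (h : Facet φ c r) :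
    ∃ ρ > 0, ∀ w, ‖w‖ = 1 → ‖w - F.f c‖ < ρ → φ (F.g w) = 1 := by
  obtain ⟨ρ, hρ, hh⟩ := h.near
  refine ⟨ρ, hρ, fun w hw hwc => hh _ (F.ng w hw) ?_⟩
  have := F.iso' w (F.f c) hw (F.nf c h.norm)
  rw [F.gf c h.norm] at this
  rwa [this]

/-- The image of a facet is a facet. -/
theorem dual_facet (h : Facet φ c r) :
    ∃ (ψ : Y →L[ℝ] ℝ) (r' : ℝ), Facet ψ (F.f c) r' ∧
      (∀ y, ‖y‖ = 1 → (ψ y = 1 ↔ φ (F.g y) = 1)) ∧
      (∀ y, ‖y‖ = 1 → (ψ y = 1 ↔ φ (-F.g (-y)) = 1)) := by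
  have hc : ‖c‖ = 1 := h.norm
  have hfc := F.nf c hc
  have hfc0 : F.f c ≠ 0 := by
    intro h0; rw [h0, norm_zero] at hfc; norm_num at hfc
  obtain ⟨ρ, hρ, hnear⟩ := nearY F h
  obtain ⟨ψ, hψ, hψc⟩ := exists_norming (F.f c) hfc0
  rw [hfc] at hψc
  have hEc : φ (F.g (F.f c)) = 1 := by rw [F.gf c hc]; exact h.val
  -- ψ is one on the image face
  have key : ∀ w, ‖w‖ = 1 → φ (F.g w) = 1 → ψ w = 1 := by
    intro w hw hwE
    obtain ⟨t, ht0, ht1, htρ⟩ : ∃ t : ℝ, 0 < t ∧ t ≤ 1 / 4 ∧ 4 * t < ρ := by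
      refine ⟨min (1 / 4) (ρ / 8), by positivity, min_le_left _ _, ?_⟩
      have := min_le_right (1 / 4 : ℝ) (ρ / 8)
      linarith
    obtain ⟨χ, hχ, hχw, -, hχc⟩ := triple F h hw hw hwE hwE
    set wt : Y := (1 - t) • F.f c + t • w with hwt
    have hχwt : χ wt = 1 := by
      rw [hwt, map_add, map_smul, map_smul, hχw, hχc, smul_eq_mul, smul_eq_mul]; ring
    have hwt1 : ‖wt‖ = 1 := by
      apply le_antisymm
      · calc ‖wt‖ ≤ ‖(1 - t) • F.f c‖ + ‖t • w‖ := norm_add_le _ _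
          _ = 1 := by
            rw [norm_smul, norm_smul, hfc, hw, Real.norm_of_nonneg (by linarith),
              Real.norm_of_nonneg ht0.le]; ring
      · rw [← hχwt]; exact hχ _
    have hwtE : φ (F.g wt) = 1 := by
      rw [E_iff_D F h hwt1, ← memD F h hwt1]
      exact norm_eq_two hwt1 hfc hχ hχwt hχc
    set w' : Y := F.f c - t • (w - F.f c) with hw'
    have hw'd : ‖w' - F.f c‖ ≤ 2 * t := by
      have : w' - F.f c = -(t • (w - F.f c)) := by rw [hw']; abel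
      rw [this, norm_neg, norm_smul, Real.norm_of_nonneg ht0.le]
      have : ‖w - F.f c‖ ≤ 2 := by
        calc ‖w - F.f c‖ ≤ ‖w‖ + ‖F.f c‖ := norm_sub_le _ _
          _ = 2 := by rw [hw, hfc]; norm_num
      nlinarith
    have hN : |‖w'‖ - 1| ≤ 2 * t := by
      rw [← hfc]
      exact (abs_norm_sub_norm_le _ _).trans hw'd
    have hNpos : 0 < ‖w'‖ := by
      have := (abs_le.mp hN).1
      linarith
    set w'' : Y := ‖w'‖⁻¹ • w' with hw''
    have hw''1 : ‖w''‖ = 1 := by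
      rw [hw'', norm_smul, norm_inv, norm_norm, inv_mul_cancel₀ hNpos.ne']
    have hw''c : ‖w'' - F.f c‖ < ρ := by
      have e1 : ‖w'' - w'‖ ≤ 2 * t := by
        have : w'' - w' = (1 - ‖w'‖) • w'' := by
          have : w' = ‖w'‖ • w'' := by rw [hw'', smul_smul, mul_inv_cancel₀ hNpos.ne', one_smul]
          rw [sub_smul, one_smul, ← this]
        rw [this, norm_smul, hw''1, mul_one, Real.norm_eq_abs, abs_sub_comm]
        exact hN
      calc ‖w'' - F.f c‖ = ‖(w'' - w') + (w' - F.f c)‖ := by congr 1; abel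
        _ ≤ ‖w'' - w'‖ + ‖w' - F.f c‖ := norm_add_le _ _
        _ ≤ 4 * t := by linarith
        _ < ρ := htρ
    have hw''E := hnear _ hw''1 hw''c
    obtain ⟨χ', hχ', h1, h2, h3⟩ := triple F h hwt1 hw''1 hwtE hw''E
    have e2 : wt + w' = (2 : ℝ) • F.f c := by
      rw [hwt, hw', two_smul, smul_sub, sub_smul, one_smul]; abel
    have e3 : w' = ‖w'‖ • w'' := by rw [hw'', smul_smul, mul_inv_cancel₀ hNpos.ne', one_smul]
    have e4 : χ' wt + χ' w' = 2 := by rw [← map_add, e2, map_smul, h3]; norm_num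
    rw [h1, e3, map_smul, h2, smul_eq_mul, mul_one] at e4
    have hN1 : ‖w'‖ = 1 := by linarith
    have e5 : ψ w' ≤ 1 := by rw [← hN1]; exact hψ _
    have e6 : ψ wt + ψ w' = 2 := by rw [← map_add, e2, map_smul, hψc]; norm_num
    have e7 : ψ wt ≤ 1 := by rw [← hwt1]; exact hψ _
    have e8 : ψ wt = 1 := by linarith
    rw [hwt, map_add, map_smul, map_smul, hψc, smul_eq_mul, smul_eq_mul] at e8
    have : t * (ψ w - 1) = 0 := by linarith
    rcases mul_eq_zero.mp this with h0 | h0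
    · linarith
    · linarith
  have key2 : ∀ w, ‖w‖ = 1 → ψ w = 1 → φ (F.g w) = 1 := by
    intro w hw hψw
    rw [E_iff_D F h hw, ← memD F h hw]
    exact norm_eq_two hw hfc hψ hψw hψc
  refine ⟨ψ, min (ρ / 4) (1 / 2), ⟨by positivity, hψc, hψ, ?_⟩,
    fun y hy => ⟨key2 y hy, key y hy⟩, fun y hy => ?_⟩
  · intro k hk hkn
    have hk1 : ‖k‖ ≤ ρ / 4 := hkn.trans (min_le_left _ _)
    set v : Y := F.f c + k with hv
    have hψv : ψ v = 1 := by rw [hv, map_add, hψc, hk, add_zero]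
    have hN1 : 1 ≤ ‖v‖ := by rw [← hψv]; exact hψ _
    have hN2 : ‖v‖ ≤ 1 + ‖k‖ := by
      rw [hv]; refine (norm_add_le _ _).trans ?_; rw [hfc]
    have hNpos : 0 < ‖v‖ := by linarith
    set w : Y := ‖v‖⁻¹ • v with hw
    have hw1 : ‖w‖ = 1 := by rw [hw, norm_smul, norm_inv, norm_norm, inv_mul_cancel₀ hNpos.ne']
    have hwc : ‖w - F.f c‖ < ρ := by
      have e1 : ‖w - v‖ ≤ ‖k‖ := by
        have : w - v = (1 - ‖v‖) • w := by
          have : v = ‖v‖ • w := by rw [hw, smul_smul, mul_inv_cancel₀ hNpos.ne', one_smul]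
          rw [sub_smul, one_smul, ← this]
        rw [this, norm_smul, hw1, mul_one, Real.norm_eq_abs, abs_sub_comm, abs_of_nonneg]
        · linarith
        · linarith
      calc ‖w - F.f c‖ = ‖(w - v) + k‖ := by congr 1; rw [hv]; abel
        _ ≤ ‖w - v‖ + ‖k‖ := norm_add_le _ _
        _ ≤ ρ / 4 + ρ / 4 := by linarith
        _ < ρ := by linarith
    have := key w hw1 (hnear w hw1 hwc)
    rw [hw, map_smul, hψv, smul_eq_mul, mul_one, inv_eq_one] at this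
    exact this.le
  · rw [← E_iff_D F h hy]
    exact ⟨key2 y hy, key y hy⟩

end dualFacet

end Vale.Agent.H7Tingley
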