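import Vale.Agent.Lib.H7Tingley.Matched

/-! Gluing the linear maps of different facets. -/

namespace Vale.Agent.H7Tingley

open Metric

variable {X Y : Type*} [NormedAddCommGroup X] [NormedSpace ℝ X]
  [NormedAddCommGroup Y] [NormedSpace ℝ Y]

/-- The norm is affine on an initial part of each ray. -/
def RayLin (X : Type*) [NormedAddCommGroup X] [NormedSpace ℝ X] : Prop :=
  ∀ x v : X, ∃ ε > 0, ∃ d : ℝ, ∀ t, 0 ≤ t → t ≤ ε → ‖x + t • v‖ = ‖x‖ + t * d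

/-- Each unit vector lies in a facet. -/
def Bdry (X : Type*) [NormedAddCommGroup X] [NormedSpace ℝ X] : Prop :=
  ∀ z : X, ‖z‖ = 1 → ∃ (φ : X →L[ℝ] ℝ) (c : X) (r : ℝ), Facet φ c r ∧ φ z = 1

theorem comp_of_meet {F : SphIso X Y} {φ₁ φ₂ : X →L[ℝ] ℝ} {ψ₁ ψ₂ : Y →L[ℝ] ℝ}
    {T₁ T₂ : X →L[ℝ] Y} (h₁ : Matched F φ₁ ψ₁ T₁) (h₂ : Matched F φ₂ ψ₂ T₂) {z : X}
    (hz : ‖z‖ = 1) (hz₁ : φ₁ z = 1) (hz₂ : φ₂ z = 1) (x : X) : ψ₁ (T₂ x) = φ₁ x := by
  obtain ⟨c, r, hf⟩ := h₂.facet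
  obtain ⟨ρ, hρ, hnear⟩ := h₁.near
  have hr := hf.pos
  obtain ⟨t, ht0, ht1, htρ⟩ : ∃ t > 0, t ≤ 1 ∧ t * (2 + r) ≤ ρ := by
    refine ⟨min 1 (ρ / (2 + r)), by positivity, min_le_left _ _, ?_⟩
    calc min 1 (ρ / (2 + r)) * (2 + r) ≤ ρ / (2 + r) * (2 + r) := by
          gcongr; exact min_le_right _ _
      _ = ρ := by field_simp
  obtain ⟨p, hp⟩ : ∃ p : X, p = (1 - t) • z + t • c := ⟨_, rfl⟩
  have hloc : ∀ k, φ₂ k = 0 → ‖k‖ ≤ t * r → ψ₁ (T₂ (p + k)) = φ₁ (p + k) := by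
    intro k hk hkn
    have hφ : φ₂ (p + k) = 1 := by
      rw [hp, map_add, map_add, map_smul, map_smul, hz₂, hf.val, hk, smul_eq_mul, smul_eq_mul]
      ring
    have hle : ‖p + k‖ ≤ 1 := by
      have e1 : p + k = (1 - t) • z + t • (c + t⁻¹ • k) := by
        rw [smul_add, smul_smul, mul_inv_cancel₀ ht0.ne', one_smul, hp]; abel
      have e2 : ‖c + t⁻¹ • k‖ ≤ 1 := by
        apply hf.ball _ (by rw [map_smul, hk, smul_zero])
        rw [norm_smul, norm_inv, Real.norm_of_nonneg ht0.le, inv_mul_le_iff₀ ht0]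
        exact hkn
      rw [e1]
      refine (norm_add_le _ _).trans ?_
      rw [norm_smul, norm_smul, hz, Real.norm_of_nonneg ht0.le,
        Real.norm_of_nonneg (by linarith)]
      nlinarith
    have hn : ‖p + k‖ = 1 := norm_one_of hf.le hφ hle
    have hd : ‖p + k - z‖ ≤ ρ := by
      have e1 : p + k - z = t • (c - z) + k := by rw [hp]; module
      rw [e1]
      refine (norm_add_le _ _).trans ?_
      rw [norm_smul, Real.norm_of_nonneg ht0.le]
      have : ‖c - z‖ ≤ 2 := by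
        refine (norm_sub_le _ _).trans ?_
        rw [hf.norm, hz]; norm_num
      nlinarith
    rw [h₂.face _ hn hφ]
    exact hnear z (p + k) hz hz₁ hn hd
  have h0 : ψ₁ (T₂ p) = φ₁ p := by
    have := hloc 0 (by simp) (by simp; positivity)
    simpa using this
  have hker : ∀ k, φ₂ k = 0 → ψ₁ (T₂ k) = φ₁ k := by
    intro k hk
    set s : ℝ := ‖k‖ / (t * r) + 1 with hs
    have hs0 : 0 < s := by positivity
    have h1 : ‖s⁻¹ • k‖ ≤ t * r := by
      rw [norm_smul, norm_inv, Real.norm_of_nonneg hs0.le, inv_mul_le_iff₀ hs0, hs]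
      have : ‖k‖ / (t * r) * (t * r) = ‖k‖ := div_mul_cancel₀ _ (by positivity)
      nlinarith [norm_nonneg k, mul_pos ht0 hr]
    have h2 := hloc (s⁻¹ • k) (by rw [map_smul, hk, smul_zero]) h1
    rw [map_add, map_add, map_add, h0, map_smul, map_smul, map_smul] at h2
    have h3 : s⁻¹ • ψ₁ (T₂ k) = s⁻¹ • φ₁ k := add_left_cancel h2
    have := congrArg (fun y => s • y) h3
    simp only [smul_smul, mul_inv_cancel₀ hs0.ne', one_smul] at this
    exact this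
  have hpφ : φ₂ p = 1 := by
    rw [hp, map_add, map_smul, map_smul, hz₂, hf.val, smul_eq_mul, smul_eq_mul]; ring
  have hx : x = φ₂ x • p + (x - φ₂ x • p) := by abel
  have h4 := hker (x - φ₂ x • p) (by rw [map_sub, map_smul, hpφ, smul_eq_mul, mul_one, sub_self])
  calc ψ₁ (T₂ x) = ψ₁ (T₂ (φ₂ x • p + (x - φ₂ x • p))) := by rw [← hx]
    _ = φ₂ x • φ₁ p + φ₁ (x - φ₂ x • p) := by rw [map_add, map_add, h4, map_smul, map_smul, h0]
    _ = φ₁ (φ₂ x • p + (x - φ₂ x • p)) := by rw [map_add, map_smul]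
    _ = φ₁ x := by rw [← hx]

/-- On an initial part of each ray some facet functional computes the norm. -/
theorem exists_common_facet (hR : RayLin X) (hB : Bdry X) (x v : X) (hx : x ≠ 0) :
    ∃ ε > (0 : ℝ), ∃ (φ : X →L[ℝ] ℝ) (c : X) (r : ℝ), Facet φ c r ∧
      ∀ t : ℝ, 0 ≤ t → t ≤ ε → φ (x + t • v) = ‖x + t • v‖ := by
  obtain ⟨ε₀, hε₀, d, hd⟩ := hR x v
  have hxn : 0 < ‖x‖ := norm_pos_iff.mpr hx
  obtain ⟨ε, hε, hεε₀, hεv⟩ : ∃ ε > 0, ε ≤ ε₀ ∧ ε * ‖v‖ < ‖x‖ := by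
    refine ⟨min ε₀ (‖x‖ / (‖v‖ + 1)), by positivity, min_le_left _ _, ?_⟩
    calc min ε₀ (‖x‖ / (‖v‖ + 1)) * ‖v‖ ≤ ‖x‖ / (‖v‖ + 1) * ‖v‖ := by
          gcongr; exact min_le_right _ _
      _ = ‖x‖ * (‖v‖ / (‖v‖ + 1)) := by ring
      _ < ‖x‖ * 1 := by
          apply mul_lt_mul_of_pos_left _ hxn
          rw [div_lt_one (by positivity)]
          linarith
      _ = ‖x‖ := mul_one _
  set y : X := x + (ε / 2) • v with hy
  have hyne : y ≠ 0 := by
    intro h0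
    have : x = -((ε / 2) • v) := by rw [eq_neg_iff_add_eq_zero]; exact h0
    have h1 : ‖x‖ = ε / 2 * ‖v‖ := by
      rw [this, norm_neg, norm_smul, Real.norm_of_nonneg (by positivity)]
    have := norm_nonneg v
    nlinarith
  have hyn : 0 < ‖y‖ := norm_pos_iff.mpr hyne
  obtain ⟨φ, c, r, hf, hφ⟩ := hB (‖y‖⁻¹ • y)
    (by rw [norm_smul, norm_inv, norm_norm, inv_mul_cancel₀ hyn.ne'])
  have hφy : φ y = ‖y‖ := by
    rw [map_smul, smul_eq_mul, inv_mul_eq_one₀ hyn.ne'] at hφ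
    exact hφ.symm
  have hyd : ‖y‖ = ‖x‖ + ε / 2 * d := hd _ (by positivity) (by linarith)
  have h0 := hf.le x
  have h1 := hf.le (x + ε • v)
  rw [hd ε hε.le hεε₀, map_add, map_smul, smul_eq_mul] at h1
  rw [hyd, hy, map_add, map_smul, smul_eq_mul] at hφy
  have h2 : φ x = ‖x‖ := by linarith
  have h3 : φ v = d := by
    have : ε * (φ v - d) = 0 := by linarith
    rcases mul_eq_zero.mp this with h | h
    · linarith
    · linarith
  refine ⟨ε, hε, φ, c, r, hf, fun t ht0 ht => ?_⟩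
  rw [hd t ht0 (ht.trans hεε₀), map_add, map_smul, h2, h3, smul_eq_mul]

theorem T_eq_of_meet (hR : RayLin X) (hB : Bdry X) {F : SphIso X Y}
    {φ₁ φ₂ : X →L[ℝ] ℝ} {ψ₁ ψ₂ : Y →L[ℝ] ℝ}
    {T₁ T₂ : X →L[ℝ] Y} (h₁ : Matched F φ₁ ψ₁ T₁) (h₂ : Matched F φ₂ ψ₂ T₂) {z : X}
    (hz : ‖z‖ = 1) (hz₁ : φ₁ z = 1) (hz₂ : φ₂ z = 1) : T₁ = T₂ := by
  by_contra hne
  obtain ⟨v, hv⟩ : ∃ v, T₁ v ≠ T₂ v := by
    by_contra h
    push Not at h
    exact hne (ContinuousLinearMap.ext h)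
  have hφ₁le : ∀ x, φ₁ x ≤ ‖x‖ := by obtain ⟨c, r, hf⟩ := h₁.facet; exact hf.le
  obtain ⟨w, hw⟩ := h₁.surj (T₁ v - T₂ v)
  have hw0 : w ≠ 0 := by
    intro h0
    rw [h0, map_zero] at hw
    exact hv (sub_eq_zero.mp hw.symm)
  have hφ₁w : φ₁ w = 0 := by
    rw [← h₁.comp w, hw, map_sub, h₁.comp v, comp_of_meet h₁ h₂ hz hz₁ hz₂ v, sub_self]
  have hφ₂w : φ₂ w = 0 := by
    rw [← comp_of_meet h₂ h₁ hz hz₂ hz₁ w, hw, map_sub, comp_of_meet h₂ h₁ hz hz₂ hz₁ v,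
      h₂.comp v, sub_self]
  have hwn : 0 < ‖w‖ := norm_pos_iff.mpr hw0
  -- exit point
  let A : Set ℝ := {s | 0 ≤ s ∧ ‖z + s • w‖ ≤ 1}
  have hA0 : (0 : ℝ) ∈ A := ⟨le_rfl, by rw [zero_smul, add_zero, hz]⟩
  have hbdd : BddAbove A := by
    refine ⟨2 / ‖w‖, fun s hs => ?_⟩
    rw [le_div_iff₀ hwn]
    have h1 : ‖s • w‖ ≤ ‖z + s • w‖ + ‖z‖ := by
      calc ‖s • w‖ = ‖(z + s • w) - z‖ := by congr 1; abel
        _ ≤ _ := norm_sub_le _ _
    rw [norm_smul, Real.norm_of_nonneg hs.1, hz] at h1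
    linarith [hs.2]
  have hclosed : IsClosed A := by
    apply IsClosed.inter (isClosed_le continuous_const continuous_id)
    exact isClosed_le ((continuous_const.add (continuous_id.smul continuous_const)).norm)
      continuous_const
  have hsup : sSup A ∈ A := hclosed.csSup_mem ⟨0, hA0⟩ hbdd
  set s₀ := sSup A with hs₀
  set z₁ : X := z + s₀ • w with hz₁'
  have hφ₁z₁ : φ₁ z₁ = 1 := by rw [hz₁', map_add, map_smul, hφ₁w, hz₁, smul_zero, add_zero]
  have hφ₂z₁ : φ₂ z₁ = 1 := by rw [hz₁', map_add, map_smul, hφ₂w, hz₂, smul_zero, add_zero]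
  have hz₁n : ‖z₁‖ = 1 := norm_one_of hφ₁le hφ₁z₁ hsup.2
  have hz₁0 : z₁ ≠ 0 := by
    intro h0; rw [h0, norm_zero] at hz₁n; norm_num at hz₁n
  have hexit : ∀ t : ℝ, 0 < t → 1 < ‖z₁ + t • w‖ := by
    intro t ht
    by_contra hcon
    push Not at hcon
    have : s₀ + t ∈ A := by
      refine ⟨add_nonneg hsup.1 ht.le, ?_⟩
      rw [add_smul, ← add_assoc]
      exact hcon
    have := le_csSup hbdd this
    linarith
  obtain ⟨ε, hε, φ, c, r, hf, hφ⟩ := exists_common_facet hR hB z₁ w hz₁0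
  have hφz : φ z₁ = 1 := by
    have := hφ 0 le_rfl hε.le
    rw [zero_smul, add_zero, hz₁n] at this
    exact this
  have hφw : 0 < φ w := by
    have h1 := hφ ε hε.le le_rfl
    have h2 := hexit ε hε
    rw [← h1, map_add, hφz, map_smul, smul_eq_mul] at h2
    by_contra hcon
    push Not at hcon
    nlinarith
  obtain ⟨ψ, T, hm⟩ := exists_matched F hf
  have h5 := comp_of_meet hm h₁ hz₁n hφz hφ₁z₁
  have h6 := comp_of_meet hm h₂ hz₁n hφz hφ₂z₁
  have : φ w = 0 := by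
    rw [← h5 w, hw, map_sub, h5 v, h6 v, sub_self]
  linarith

/-- `T` is the linear map belonging to a facet whose cone contains `x`. -/
def Good (F : SphIso X Y) (x : X) (T : X →L[ℝ] Y) : Prop :=
  ∃ φ ψ, Matched F φ ψ T ∧ φ x = ‖x‖

theorem Good.unique (hR : RayLin X) (hB : Bdry X) {F : SphIso X Y} {x : X} (hx : x ≠ 0)
    {T₁ T₂ : X →L[ℝ] Y} (h₁ : Good F x T₁) (h₂ : Good F x T₂) : T₁ = T₂ := by
  obtain ⟨φ₁, ψ₁, m₁, e₁⟩ := h₁
  obtain ⟨φ₂, ψ₂, m₂, e₂⟩ := h₂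
  have hxn : 0 < ‖x‖ := norm_pos_iff.mpr hx
  refine T_eq_of_meet hR hB m₁ m₂ (z := ‖x‖⁻¹ • x)
    (by rw [norm_smul, norm_inv, norm_norm, inv_mul_cancel₀ hxn.ne']) ?_ ?_
  · rw [map_smul, e₁, smul_eq_mul, inv_mul_cancel₀ hxn.ne']
  · rw [map_smul, e₂, smul_eq_mul, inv_mul_cancel₀ hxn.ne']

/-- Local constancy along rays. -/
theorem good_ray (hR : RayLin X) (hB : Bdry X) (F : SphIso X Y) (x v : X) (hx : x ≠ 0) :
    ∃ ε > (0 : ℝ), ∃ T, ∀ t : ℝ, 0 ≤ t → t ≤ ε → Good F (x + t • v) T := by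
  obtain ⟨ε, hε, φ, c, r, hf, hφ⟩ := exists_common_facet hR hB x v hx
  obtain ⟨ψ, T, hm⟩ := exists_matched F hf
  exact ⟨ε, hε, T, fun t h0 h1 => ⟨φ, ψ, hm, hφ t h0 h1⟩⟩

theorem good_segment (hR : RayLin X) (hB : Bdry X) (F : SphIso X Y) (p q : X)
    (hpq : ∀ t : ℝ, 0 ≤ t → t ≤ 1 → p + t • (q - p) ≠ 0) {T : X →L[ℝ] Y} (hT : Good F p T) :
    Good F q T := by
  let γ : ℝ → X := fun t => p + t • (q - p)
  have hγ0 : γ 0 = p := by simp [γ]
  have hγ1 : γ 1 = q := by simp [γ]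
  let A : Set ℝ := {t | 0 ≤ t ∧ t ≤ 1 ∧ ∀ τ, 0 ≤ τ → τ ≤ t → Good F (γ τ) T}
  have hA0 : (0 : ℝ) ∈ A := by
    refine ⟨le_rfl, zero_le_one, fun τ h0 h1 => ?_⟩
    have : τ = 0 := le_antisymm h1 h0
    rw [this, hγ0]; exact hT
  have hbdd : BddAbove A := ⟨1, fun t ht => ht.2.1⟩
  set t₀ := sSup A with ht₀
  have ht₀0 : 0 ≤ t₀ := le_csSup hbdd hA0
  have ht₀1 : t₀ ≤ 1 := csSup_le ⟨_, hA0⟩ fun t ht => ht.2.1
  have hlt : ∀ τ, 0 ≤ τ → τ < t₀ → Good F (γ τ) T := by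
    intro τ h0 h1
    obtain ⟨t, ht, htτ⟩ := exists_lt_of_lt_csSup ⟨_, hA0⟩ h1
    exact ht.2.2 τ h0 htτ.le
  have hγne : ∀ t, 0 ≤ t → t ≤ 1 → γ t ≠ 0 := hpq
  have hat : Good F (γ t₀) T := by
    rcases ht₀0.eq_or_lt with h | h
    · rw [← h, hγ0]; exact hT
    · obtain ⟨ε, hε, T', hT'⟩ := good_ray hR hB F (γ t₀) (-(q - p)) (hγne _ ht₀0 ht₀1)
      have e1 : γ t₀ + (min ε t₀) • (-(q - p)) = γ (t₀ - min ε t₀) := by
        change p + t₀ • (q - p) + (min ε t₀) • (-(q - p)) = p + (t₀ - min ε t₀) • (q - p)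
        module
      have hm : 0 < min ε t₀ := lt_min hε h
      have h1 := hT' (min ε t₀) hm.le (min_le_left _ _)
      rw [e1] at h1
      have h2 := hlt (t₀ - min ε t₀) (by have := min_le_right ε t₀; linarith) (by linarith)
      have h3 : T' = T := Good.unique hR hB (hγne _ (by have := min_le_right ε t₀; linarith)
        (by linarith)) h1 h2
      have h4 := hT' 0 le_rfl hε.le
      rw [zero_smul, add_zero, h3] at h4
      exact h4
  have hle : ∀ τ, 0 ≤ τ → τ ≤ t₀ → Good F (γ τ) T := by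
    intro τ h0 h1
    rcases h1.lt_or_eq with h2 | h2
    · exact hlt τ h0 h2
    · rw [h2]; exact hat
  have ht₀eq : t₀ = 1 := by
    by_contra hne
    have hlt1 : t₀ < 1 := lt_of_le_of_ne ht₀1 hne
    obtain ⟨ε, hε, T', hT'⟩ := good_ray hR hB F (γ t₀) (q - p) (hγne _ ht₀0 ht₀1)
    have h4 := hT' 0 le_rfl hε.le
    rw [zero_smul, add_zero] at h4
    have h3 : T' = T := Good.unique hR hB (hγne _ ht₀0 ht₀1) h4 hat
    rw [h3] at hT'
    have hpos : 0 < min ε (1 - t₀) := lt_min hε (by linarith)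
    have hmem : t₀ + min ε (1 - t₀) ∈ A := by
      refine ⟨by linarith, by have := min_le_right ε (1 - t₀); linarith, fun τ h0 h1 => ?_⟩
      rcases le_or_gt τ t₀ with h2 | h2
      · exact hle τ h0 h2
      · have := hT' (τ - t₀) (by linarith) (by have := min_le_left ε (1 - t₀); linarith)
        have e : γ t₀ + (τ - t₀) • (q - p) = γ τ := by
          change p + t₀ • (q - p) + (τ - t₀) • (q - p) = p + τ • (q - p)
          module
        rwa [e] at this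
    have := le_csSup hbdd hmem
    linarith
  have := hle 1 zero_le_one (by rw [ht₀eq])
  rwa [hγ1] at this

theorem segment_ne_zero {p q : X} (hp : ‖p‖ = 1) (hq : ‖q‖ = 1) (hne : q ≠ -p) :
    ∀ t : ℝ, 0 ≤ t → t ≤ 1 → p + t • (q - p) ≠ 0 := by
  intro t h0 h1 h
  have e1 : (1 - t) • p = -(t • q) := by
    rw [eq_neg_iff_add_eq_zero, ← h]; module
  have e2 : 1 - t = t := by
    have := congrArg norm e1
    rw [norm_neg, norm_smul, norm_smul, hp, hq, Real.norm_of_nonneg h0,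
      Real.norm_of_nonneg (by linarith)] at this
    linarith
  have e3 : t = 1 / 2 := by linarith
  rw [e3] at e1
  apply hne
  have := congrArg (fun y => (-2 : ℝ) • y) e1
  simp only [smul_neg, smul_smul] at this
  norm_num at this
  exact this.symm

/-- Gluing: if each unit vector is in a facet then the isometry is linear. -/
theorem linear_of_bdry (hR : RayLin X) (hB : Bdry X) (F : SphIso X Y) :
    ∃ T : X →L[ℝ] Y, ∀ x, ‖x‖ = 1 → T x = F.f x := by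
  by_cases hX : ∃ p : X, ‖p‖ = 1
  swap
  · push Not at hX
    exact ⟨0, fun x hx => absurd hx (hX x)⟩
  obtain ⟨p, hp⟩ := hX
  have hne0 : ∀ x : X, ‖x‖ = 1 → x ≠ 0 := by
    intro x hx h0; rw [h0, norm_zero] at hx; norm_num at hx
  obtain ⟨ε, hε, T, hT'⟩ := good_ray hR hB F p 0 (hne0 p hp)
  have hT : Good F p T := by
    have := hT' 0 le_rfl hε.le
    simpa using this
  refine ⟨T, ?_⟩
  have hfin : ∀ x, ‖x‖ = 1 → Good F x T → T x = F.f x := by
    rintro x hx ⟨φ, ψ, hm, hφ⟩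
    exact hm.face x hx (by rw [hφ, hx])
  have hmain : ∀ x, ‖x‖ = 1 → x ≠ -p → Good F x T := fun x hx hxp =>
    good_segment hR hB F p x (segment_ne_zero hp hx hxp) hT
  intro x hx
  by_cases hxp : x = -p
  swap
  · exact hfin x hx (hmain x hx hxp)
  by_cases hr : ∃ r : X, ‖r‖ = 1 ∧ r ≠ p ∧ r ≠ -p
  · obtain ⟨r, hr1, hrp, hrp'⟩ := hr
    have h1 := hmain r hr1 hrp'
    apply hfin x hx
    apply good_segment hR hB F r x (segment_ne_zero hr1 hx _) h1
    intro h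
    apply hrp
    rw [hxp] at h
    exact (neg_injective h).symm
  · push Not at hr
    have hfp := F.nf p hp
    have hnfp : ‖-F.f p‖ = 1 := by rw [norm_neg]; exact hfp
    have hg := F.ng _ hnfp
    have hgne : F.g (-F.f p) ≠ p := by
      intro h
      have h1 : F.f (F.g (-F.f p)) = F.f p := by rw [h]
      rw [F.fg _ hnfp] at h1
      have h2 : F.f p = 0 := by
        have h3 : (2 : ℝ) • F.f p = 0 := by
          rw [two_smul]
          nth_rewrite 1 [← h1]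
          exact neg_add_cancel _
        rcases smul_eq_zero.mp h3 with h4 | h4
        · norm_num at h4
        · exact h4
      rw [h2, norm_zero] at hfp
      norm_num at hfp
    have hgeq := hr _ hg hgne
    have h3 : F.f (-p) = -F.f p := by rw [← hgeq, F.fg _ hnfp]
    rw [hxp, h3, map_neg, hfin p hp hT]

end Vale.Agent.H7Tingley
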