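import Vale.Agent.Lib.H7Tingley.Facet

/-! A local version of the Mazur-Ulam theorem on facets. -/

namespace Vale.Agent.H7Tingley

open Metric

section abstractMidpoint

variable {P Q : Type*} [MetricSpace P] [MetricSpace Q]

theorem fixed_of_reflection (a b z : P) (R : P ≃ᵢ P) (hRa : R a = b) (hRb : R b = a)
    (hz : R z = z) (hR : ∀ x, dist (R x) x = 2 * dist x z) :
    ∀ e : P ≃ᵢ P, e a = a → e b = b → e z = z := by
  set s := { e : P ≃ᵢ P | e a = a ∧ e b = b }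
  have : Nonempty s := ⟨⟨IsometryEquiv.refl P, rfl, rfl⟩⟩
  have h_bdd : BddAbove (Set.range fun e : s => dist ((e : P ≃ᵢ P) z) z) := by
    refine ⟨dist a z + dist a z, Set.forall_mem_range.2 <| Subtype.forall.2 ?_⟩
    rintro e ⟨hx, _⟩
    calc
      dist (e z) z ≤ dist (e z) a + dist a z := dist_triangle (e z) a z
      _ = dist (e a) (e z) + dist a z := by rw [hx, dist_comm]
      _ = dist a z + dist a z := by rw [e.dist_eq a z]
  set f : P ≃ᵢ P → P ≃ᵢ P := fun e => ((e.trans R).trans e.symm).trans R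
  have hf_dist : ∀ e, dist (f e z) z = 2 * dist (e z) z := by
    intro e
    have e1 : dist (R (e.symm (R (e z)))) z = dist (e.symm (R (e z))) z := by
      rw [← R.dist_eq (e.symm (R (e z))) z, hz]
    have e2 : dist (e.symm (R (e z))) z = dist (R (e z)) (e z) := by
      rw [← e.dist_eq, e.apply_symm_apply]
    change dist (R (e.symm (R (e z)))) z = _
    rw [e1, e2, hR]
  have hf_maps_to : Set.MapsTo f s s := by
    rintro e ⟨hx, hy⟩
    constructor
    · change R (e.symm (R (e a))) = a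
      rw [hx, hRa, e.symm_apply_eq.2 hy.symm, hRb]
    · change R (e.symm (R (e b))) = b
      rw [hy, hRb, e.symm_apply_eq.2 hx.symm, hRa]
  set c := ⨆ e : s, dist ((e : P ≃ᵢ P) z) z
  have : c ≤ c / 2 := by
    apply ciSup_le
    rintro ⟨e, he⟩
    simp only [le_div_iff₀' (zero_lt_two' ℝ), ← hf_dist]
    exact le_ciSup h_bdd ⟨f e, hf_maps_to he⟩
  replace : c ≤ 0 := by linarith
  refine fun e hx hy => dist_le_zero.1 (le_trans ?_ this)
  exact le_ciSup h_bdd ⟨e, hx, hy⟩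

theorem map_of_reflection (a b z : P) (R : P ≃ᵢ P) (hRa : R a = b) (hRb : R b = a)
    (hRR : ∀ x, R (R x) = x) (hz : R z = z) (hR : ∀ x, dist (R x) x = 2 * dist x z)
    (f : P ≃ᵢ Q) (z' : Q) (R' : Q ≃ᵢ Q) (hRa' : R' (f a) = f b) (hRb' : R' (f b) = f a)
    (hR' : ∀ x, dist (R' x) x = 2 * dist x z') : f z = z' := by
  have key := fixed_of_reflection a b z R hRa hRb hz hR
    (((f.trans R').trans f.symm).trans R)
    (by change R (f.symm (R' (f a))) = a; rw [hRa', f.symm_apply_apply, hRb])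
    (by change R (f.symm (R' (f b))) = b; rw [hRb', f.symm_apply_apply, hRa])
  change R (f.symm (R' (f z))) = z at key
  have k2 : f.symm (R' (f z)) = z := by
    have := congrArg R key
    rw [hRR, hz] at this
    exact this
  have k3 : R' (f z) = f z := by
    rw [← f.apply_symm_apply (R' (f z)), k2]
  have k4 := hR' (f z)
  rw [k3, dist_self] at k4
  exact dist_le_zero.1 (by linarith)

end abstractMidpoint

section lens

variable {X : Type*} [NormedAddCommGroup X] [NormedSpace ℝ X]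

/-- The lens between two points of a hyperplane. -/
def lens (φ : X →L[ℝ] ℝ) (a b : X) : Set X :=
  {x | φ x = 1 ∧ ‖x - a‖ ≤ ‖a - b‖ ∧ ‖x - b‖ ≤ ‖a - b‖}

/-- Reflection of the lens in its centre. -/
def lensRefl (φ : X →L[ℝ] ℝ) (a b : X) (ha : φ a = 1) (hb : φ b = 1) :
    lens φ a b ≃ᵢ lens φ a b := by
  have hmem : ∀ x, x ∈ lens φ a b → a + b - x ∈ lens φ a b := by
    rintro x ⟨h1, h2, h3⟩
    refine ⟨by rw [map_sub, map_add, ha, hb, h1]; norm_num, ?_, ?_⟩
    · have : a + b - x - a = -(x - b) := by abel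
      rw [this, norm_neg]; exact h3
    · have : a + b - x - b = -(x - a) := by abel
      rw [this, norm_neg]; exact h2
  refine IsometryEquiv.mk' (fun x => ⟨a + b - x, hmem x x.2⟩) (fun x => ⟨a + b - x, hmem x x.2⟩)
    ?_ ?_
  · intro x
    apply Subtype.ext
    simp
  · apply Isometry.of_dist_eq
    intro x y
    rw [Subtype.dist_eq, Subtype.dist_eq, dist_eq_norm, dist_eq_norm]
    have : a + b - (x : X) - (a + b - (y : X)) = -((x : X) - y) := by abel
    rw [this, norm_neg]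

theorem lensRefl_apply (φ : X →L[ℝ] ℝ) (a b : X) (ha : φ a = 1) (hb : φ b = 1)
    (x : lens φ a b) : ((lensRefl φ a b ha hb x : lens φ a b) : X) = a + b - x := rfl

theorem lensRefl_dist (φ : X →L[ℝ] ℝ) (a b : X) (ha : φ a = 1) (hb : φ b = 1)
    (x : lens φ a b) (z : lens φ a b) (hz : (z : X) = (1 / 2 : ℝ) • (a + b)) :
    dist (lensRefl φ a b ha hb x) x = 2 * dist x z := by
  rw [Subtype.dist_eq, Subtype.dist_eq, dist_eq_norm, dist_eq_norm, lensRefl_apply, hz]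
  have : a + b - (x : X) - x = -((2 : ℝ) • ((x : X) - (1 / 2 : ℝ) • (a + b))) := by
    rw [smul_sub, smul_smul, two_smul]
    norm_num
    abel
  rw [this, norm_neg, norm_smul]
  norm_num

end lens

variable {X Y : Type*} [NormedAddCommGroup X] [NormedSpace ℝ X]
  [NormedAddCommGroup Y] [NormedSpace ℝ Y]

/-- A surjective isometry of spheres preserves midpoints of close pairs inside a facet. -/
theorem local_midpoint (F : SphIso X Y) {φ : X →L[ℝ] ℝ} {ψ : Y →L[ℝ] ℝ}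
    (hφ : ∀ x, φ x ≤ ‖x‖) (hψ : ∀ y, ψ y ≤ ‖y‖)
    (hface : ∀ x, ‖x‖ = 1 → (φ x = 1 ↔ ψ (F.f x) = 1))
    {a b : X} (ha : ‖a‖ = 1) (hb : ‖b‖ = 1) (hφa : φ a = 1) (hφb : φ b = 1)
    (hballX : ∀ h, φ h = 0 → ‖h‖ ≤ ‖a - b‖ → ‖a + h‖ ≤ 1)
    (hballY : ∀ h, ψ h = 0 → ‖h‖ ≤ ‖a - b‖ → ‖F.f a + h‖ ≤ 1) :
    F.f ((1 / 2 : ℝ) • (a + b)) = (1 / 2 : ℝ) • (F.f a + F.f b) := by
  have hfa := F.nf a ha
  have hfb := F.nf b hb
  have hψa : ψ (F.f a) = 1 := (hface a ha).mp hφa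
  have hψb : ψ (F.f b) = 1 := (hface b hb).mp hφb
  have hdist : ‖F.f a - F.f b‖ = ‖a - b‖ := F.iso a b ha hb
  -- elements of the lenses are unit vectors
  have hX : ∀ x ∈ lens φ a b, ‖x‖ = 1 := by
    rintro x ⟨h1, h2, -⟩
    apply le_antisymm
    · have := hballX (x - a) (by rw [map_sub, h1, hφa, sub_self]) h2
      rwa [add_sub_cancel] at this
    · rw [← h1]; exact hφ x
  have hY : ∀ y ∈ lens ψ (F.f a) (F.f b), ‖y‖ = 1 := by
    rintro y ⟨h1, h2, -⟩
    apply le_antisymm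
    · have := hballY (y - F.f a) (by rw [map_sub, h1, hψa, sub_self]) (by rw [← hdist]; exact h2)
      rwa [add_sub_cancel] at this
    · rw [← h1]; exact hψ y
  have hmapXY : ∀ x ∈ lens φ a b, F.f x ∈ lens ψ (F.f a) (F.f b) := by
    intro x hx
    have hx1 := hX x hx
    obtain ⟨h1, h2, h3⟩ := hx
    refine ⟨(hface x hx1).mp h1, ?_, ?_⟩
    · rw [F.iso _ _ hx1 ha, hdist]; exact h2
    · rw [F.iso _ _ hx1 hb, hdist]; exact h3
  have hmapYX : ∀ y ∈ lens ψ (F.f a) (F.f b), F.g y ∈ lens φ a b := by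
    intro y hy
    have hy1 := hY y hy
    obtain ⟨h1, h2, h3⟩ := hy
    have hg1 := F.ng y hy1
    refine ⟨?_, ?_, ?_⟩
    · rw [hface _ hg1, F.fg y hy1]; exact h1
    · have := F.iso' y (F.f a) hy1 hfa
      rw [F.gf a ha] at this
      rw [this, ← hdist]; exact h2
    · have := F.iso' y (F.f b) hy1 hfb
      rw [F.gf b hb] at this
      rw [this, ← hdist]; exact h3
  let f : lens φ a b ≃ᵢ lens ψ (F.f a) (F.f b) :=
    IsometryEquiv.mk' (fun x => ⟨F.f x, hmapXY x x.2⟩) (fun y => ⟨F.g y, hmapYX y y.2⟩)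
      (fun y => Subtype.ext (F.fg y (hY y y.2)))
      (by
        apply Isometry.of_dist_eq
        intro x y
        rw [Subtype.dist_eq, Subtype.dist_eq, dist_eq_norm, dist_eq_norm]
        exact F.iso _ _ (hX x x.2) (hX y y.2))
  have haL : a ∈ lens φ a b := ⟨hφa, by simp, le_rfl⟩
  have hbL : b ∈ lens φ a b := ⟨hφb, by rw [norm_sub_rev], by simp⟩
  have hzL : (1 / 2 : ℝ) • (a + b) ∈ lens φ a b := by
    refine ⟨by rw [map_smul, map_add, hφa, hφb]; norm_num, ?_, ?_⟩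
    · have : (1 / 2 : ℝ) • (a + b) - a = -((1 / 2 : ℝ) • (a - b)) := by
        module
      rw [this, norm_neg, norm_smul]
      have := norm_nonneg (a - b)
      rw [Real.norm_of_nonneg (by norm_num)]
      linarith
    · have : (1 / 2 : ℝ) • (a + b) - b = (1 / 2 : ℝ) • (a - b) := by
        module
      rw [this, norm_smul]
      have := norm_nonneg (a - b)
      rw [Real.norm_of_nonneg (by norm_num)]
      linarith
  have hz'L : (1 / 2 : ℝ) • (F.f a + F.f b) ∈ lens ψ (F.f a) (F.f b) := by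
    refine ⟨by rw [map_smul, map_add, hψa, hψb]; norm_num, ?_, ?_⟩
    · have : (1 / 2 : ℝ) • (F.f a + F.f b) - F.f a = -((1 / 2 : ℝ) • (F.f a - F.f b)) := by
        module
      rw [this, norm_neg, norm_smul]
      have := norm_nonneg (F.f a - F.f b)
      rw [Real.norm_of_nonneg (by norm_num)]
      linarith
    · have : (1 / 2 : ℝ) • (F.f a + F.f b) - F.f b = (1 / 2 : ℝ) • (F.f a - F.f b) := by
        module
      rw [this, norm_smul]
      have := norm_nonneg (F.f a - F.f b)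
      rw [Real.norm_of_nonneg (by norm_num)]
      linarith
  have key := map_of_reflection (⟨a, haL⟩ : lens φ a b) ⟨b, hbL⟩ ⟨_, hzL⟩
    (lensRefl φ a b hφa hφb)
    (Subtype.ext (by rw [lensRefl_apply]; simp))
    (Subtype.ext (by rw [lensRefl_apply]; simp))
    (fun x => Subtype.ext (by rw [lensRefl_apply, lensRefl_apply]; simp))
    (Subtype.ext (by rw [lensRefl_apply]; module))
    (fun x => lensRefl_dist φ a b hφa hφb x _ rfl)
    f ⟨_, hz'L⟩ (lensRefl ψ (F.f a) (F.f b) hψa hψb)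
    (Subtype.ext (by
      rw [lensRefl_apply]
      change F.f a + F.f b - F.f a = F.f b
      simp))
    (Subtype.ext (by
      rw [lensRefl_apply]
      change F.f a + F.f b - F.f b = F.f a
      simp))
    (fun x => lensRefl_dist ψ _ _ hψa hψb x _ rfl)
  exact congrArg Subtype.val key

/-- A locally additive isometric map extends to a linear isometry. -/
theorem exists_linear_extension {Z Y : Type*} [NormedAddCommGroup Z] [NormedSpace ℝ Z]
    [NormedAddCommGroup Y] [NormedSpace ℝ Y] (G : Z → Y) {κ : ℝ} (hκ : 0 < κ)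
    (hiso : ∀ h, ‖h‖ ≤ κ → ‖G h‖ = ‖h‖)
    (hadd : ∀ h h', ‖h‖ ≤ κ → ‖h'‖ ≤ κ → ‖h + h'‖ ≤ κ → G (h + h') = G h + G h') :
    ∃ L : Z →L[ℝ] Y, (∀ h, ‖L h‖ = ‖h‖) ∧ ∀ h, ‖h‖ ≤ κ → L h = G h := by
  have h0 : G 0 = 0 := by
    have := hiso 0 (by simpa using hκ.le)
    simpa using this
  -- multiples
  have hmul : ∀ (m : ℕ) (u : Z), ‖(m : ℝ) • u‖ ≤ κ → G ((m : ℝ) • u) = (m : ℝ) • G u := by
    intro m
    induction m with
    | zero => intro u _; simp [h0]
    | succ m ih =>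
      intro u hu
      have hn : ‖((m : ℝ) + 1) • u‖ = ((m : ℝ) + 1) * ‖u‖ := by
        rw [norm_smul, Real.norm_of_nonneg (by positivity)]
      push_cast at hu ⊢
      rw [hn] at hu
      have h1 : ‖u‖ ≤ κ := by
        have : (0 : ℝ) ≤ m * ‖u‖ := by positivity
        linarith
      have h2 : ‖(m : ℝ) • u‖ ≤ κ := by
        rw [norm_smul, Real.norm_of_nonneg (by positivity)]
        have := norm_nonneg u
        linarith
      rw [add_smul, one_smul, hadd _ _ h2 h1, ih u h2, add_smul, one_smul]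
      rw [← hn, add_smul, one_smul] at hu
      exact hu
  have hdiv : ∀ (h : Z) (N M : ℕ), 0 < N → 0 < M → ‖h‖ ≤ N * κ → ‖h‖ ≤ M * κ →
      (N : ℝ) • G ((N : ℝ)⁻¹ • h) = (M : ℝ) • G ((M : ℝ)⁻¹ • h) := by
    intro h N M hN hM h1 h2
    have hN' : (0 : ℝ) < N := by exact_mod_cast hN
    have hM' : (0 : ℝ) < M := by exact_mod_cast hM
    have e1 : (N : ℝ)⁻¹ • h = (M : ℝ) • (((N : ℝ)⁻¹ * (M : ℝ)⁻¹) • h) := by
      rw [smul_smul]; congr 1; field_simp
    have e2 : (M : ℝ)⁻¹ • h = (N : ℝ) • (((N : ℝ)⁻¹ * (M : ℝ)⁻¹) • h) := by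
      rw [smul_smul]; congr 1; field_simp
    have n1 : ‖(N : ℝ)⁻¹ • h‖ ≤ κ := by
      rw [norm_smul, norm_inv, Real.norm_of_nonneg hN'.le, inv_mul_le_iff₀ hN']
      exact h1
    have n2 : ‖(M : ℝ)⁻¹ • h‖ ≤ κ := by
      rw [norm_smul, norm_inv, Real.norm_of_nonneg hM'.le, inv_mul_le_iff₀ hM']
      exact h2
    rw [e1] at n1 ⊢
    rw [e2] at n2 ⊢
    rw [hmul M _ n1, hmul N _ n2, smul_smul, smul_smul, mul_comm]
  let n : Z → ℕ := fun h => ⌈‖h‖ / κ⌉₊ + 1
  have hn0 : ∀ h, 0 < n h := fun h => Nat.succ_pos _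
  have hn : ∀ h, ‖h‖ ≤ n h * κ := by
    intro h
    have h1 : ‖h‖ / κ ≤ (⌈‖h‖ / κ⌉₊ : ℝ) := Nat.le_ceil _
    have h2 : ((n h : ℕ) : ℝ) = (⌈‖h‖ / κ⌉₊ : ℝ) + 1 := by simp [n]
    rw [h2]
    rw [div_le_iff₀ hκ] at h1
    nlinarith
  let L₀ : Z → Y := fun h => (n h : ℝ) • G ((n h : ℝ)⁻¹ • h)
  have hL₀ : ∀ (h : Z) (N : ℕ), 0 < N → ‖h‖ ≤ N * κ → L₀ h = (N : ℝ) • G ((N : ℝ)⁻¹ • h) :=
    fun h N hN hh => hdiv h (n h) N (hn0 h) hN (hn h) hh
  have hnorm : ∀ h, ‖L₀ h‖ = ‖h‖ := by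
    intro h
    have hN' : (0 : ℝ) < n h := by exact_mod_cast hn0 h
    have n1 : ‖(n h : ℝ)⁻¹ • h‖ ≤ κ := by
      rw [norm_smul, norm_inv, Real.norm_of_nonneg hN'.le, inv_mul_le_iff₀ hN']
      exact hn h
    change ‖(n h : ℝ) • G ((n h : ℝ)⁻¹ • h)‖ = ‖h‖
    rw [norm_smul, hiso _ n1, norm_smul, norm_inv, ← mul_assoc,
      mul_inv_cancel₀ (by rw [Real.norm_of_nonneg hN'.le]; exact hN'.ne'), one_mul]
  have hL₀add : ∀ h h', L₀ (h + h') = L₀ h + L₀ h' := by
    intro h h'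
    set N := n h + n h' + n (h + h') with hN
    have hN0 : 0 < N := by have := hn0 h; omega
    have hN' : (0 : ℝ) < N := by exact_mod_cast hN0
    have c1 : (n h : ℝ) ≤ N := by exact_mod_cast (by omega : n h ≤ N)
    have c2 : (n h' : ℝ) ≤ N := by exact_mod_cast (by omega : n h' ≤ N)
    have c3 : (n (h + h') : ℝ) ≤ N := by exact_mod_cast (by omega : n (h + h') ≤ N)
    have b1 : ‖h‖ ≤ N * κ := (hn h).trans (mul_le_mul_of_nonneg_right c1 hκ.le)
    have b2 : ‖h'‖ ≤ N * κ := (hn h').trans (mul_le_mul_of_nonneg_right c2 hκ.le)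
    have b3 : ‖h + h'‖ ≤ N * κ := (hn _).trans (mul_le_mul_of_nonneg_right c3 hκ.le)
    have red : ∀ v : Z, ‖v‖ ≤ N * κ → ‖(N : ℝ)⁻¹ • v‖ ≤ κ := by
      intro v hv
      rw [norm_smul, norm_inv, Real.norm_of_nonneg hN'.le, inv_mul_le_iff₀ hN']
      exact hv
    rw [hL₀ h N hN0 b1, hL₀ h' N hN0 b2, hL₀ (h + h') N hN0 b3, smul_add,
      hadd _ _ (red h b1) (red h' b2) (by rw [← smul_add]; exact red _ b3), smul_add]
  let A : Z →+ Y := AddMonoidHom.mk' L₀ hL₀add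
  have hAiso : Isometry A := AddMonoidHomClass.isometry_of_norm A hnorm
  refine ⟨A.toRealLinearMap hAiso.continuous, hnorm, fun h hh => ?_⟩
  change L₀ h = G h
  rw [hL₀ h 1 one_pos (by simpa using hh)]
  simp

end Vale.Agent.H7Tingley
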