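import Vale.Agent.Lib.H7Tingley.LocalMU

/-! Matched facets: a surjective isometry of spheres is linear on each facet. -/

namespace Vale.Agent.H7Tingley

open Metric

variable {X Y : Type*} [NormedAddCommGroup X] [NormedSpace ℝ X]
  [NormedAddCommGroup Y] [NormedSpace ℝ Y]

theorem norm_one_of {φ : X →L[ℝ] ℝ} (hφ : ∀ x, φ x ≤ ‖x‖) {x : X} (h1 : φ x = 1)
    (h2 : ‖x‖ ≤ 1) : ‖x‖ = 1 :=
  le_antisymm h2 (by rw [← h1]; exact hφ x)

theorem Facet.norm_add {φ : X →L[ℝ] ℝ} {c : X} {r : ℝ} (h : Facet φ c r) {k : X}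
    (hk : φ k = 0) (hkr : ‖k‖ ≤ r) : ‖c + k‖ = 1 :=
  norm_one_of h.le (by rw [map_add, h.val, hk, add_zero]) (h.ball k hk hkr)

/-- Midpoints symmetric about an interior point of a facet are preserved. -/
theorem midpoint_near (F : SphIso X Y) {φ : X →L[ℝ] ℝ} {ψ : Y →L[ℝ] ℝ} {p : X} {r₁ r₂ : ℝ}
    (h : Facet φ p r₁) (h' : Facet ψ (F.f p) r₂)
    (hface : ∀ x, ‖x‖ = 1 → (φ x = 1 ↔ ψ (F.f x) = 1)) {u v : X} (hu : φ u = 0) (hv : φ v = 0)
    (hu1 : ‖u‖ + ‖u - v‖ ≤ r₁) (hu2 : ‖u‖ + ‖u - v‖ ≤ r₂) (hv1 : ‖v‖ ≤ r₁) :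
    F.f (p + (1 / 2 : ℝ) • (u + v)) = (1 / 2 : ℝ) • (F.f (p + u) + F.f (p + v)) := by
  have hur : ‖u‖ ≤ r₁ := by have := norm_nonneg (u - v); linarith
  have ha := h.norm_add hu hur
  have hb := h.norm_add hv hv1
  have hab : p + u - (p + v) = u - v := by abel
  have key := local_midpoint F h.le h'.le hface ha hb
    (by rw [map_add, h.val, hu, add_zero]) (by rw [map_add, h.val, hv, add_zero])
    (by
      intro k hk hkn
      rw [hab] at hkn
      rw [add_assoc]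
      apply h.ball _ (by rw [map_add, hu, hk, add_zero])
      refine (norm_add_le _ _).trans ?_
      linarith)
    (by
      intro k hk hkn
      rw [hab] at hkn
      have e1 : F.f (p + u) + k = F.f p + ((F.f (p + u) - F.f p) + k) := by abel
      rw [e1]
      apply h'.ball
      · rw [map_add, map_sub, (hface _ ha).mp (by rw [map_add, h.val, hu, add_zero]),
          h'.val, hk]
        norm_num
      · refine (norm_add_le _ _).trans ?_
        rw [F.iso _ _ ha h.norm, add_sub_cancel_left]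
        linarith)
  have e2 : (1 / 2 : ℝ) • (p + u + (p + v)) = p + (1 / 2 : ℝ) • (u + v) := by module
  rw [e2] at key
  exact key

theorem exists_T_local (F : SphIso X Y) {φ : X →L[ℝ] ℝ} {ψ : Y →L[ℝ] ℝ} {c : X} {r r' : ℝ}
    (h : Facet φ c r) (h' : Facet ψ (F.f c) r')
    (hface : ∀ x, ‖x‖ = 1 → (φ x = 1 ↔ ψ (F.f x) = 1)) :
    ∃ T : X →L[ℝ] Y, ∃ κ > 0, (∀ x, φ x = 1 → ‖x - c‖ ≤ κ → T x = F.f x) ∧
      ∀ x, ψ (T x) = φ x := by
  obtain ⟨κ, hκ, hκr, hκr'⟩ : ∃ κ > 0, 3 * κ ≤ r ∧ 3 * κ ≤ r' := by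
    refine ⟨min r r' / 3, by have := h.pos; have := h'.pos; positivity, ?_, ?_⟩
    · have := min_le_left r r'; linarith
    · have := min_le_right r r'; linarith
  let Z : Submodule ℝ X := LinearMap.ker (φ : X →ₗ[ℝ] ℝ)
  have hZ : ∀ h : Z, φ (h : X) = 0 := fun h => h.2
  let G : Z → Y := fun k => F.f (c + k) - F.f c
  have hG0 : G 0 = 0 := by simp [G]
  have hn : ∀ k : Z, ‖k‖ ≤ κ → ‖c + (k : X)‖ = 1 := by
    intro k hk
    exact h.norm_add (hZ k) (by
      have : ‖(k : X)‖ ≤ κ := hk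
      linarith)
  have hiso : ∀ k : Z, ‖k‖ ≤ κ → ‖G k‖ = ‖k‖ := by
    intro k hk
    change ‖F.f (c + k) - F.f c‖ = ‖(k : X)‖
    rw [F.iso _ _ (hn k hk) h.norm, add_sub_cancel_left]
  have hψG : ∀ k : Z, ‖k‖ ≤ κ → ψ (G k) = 0 := by
    intro k hk
    change ψ (F.f (c + k) - F.f c) = 0
    rw [map_sub, h'.val, (hface _ (hn k hk)).mp (by rw [map_add, h.val, hZ, add_zero]), sub_self]
  have hmid : ∀ k k' : Z, ‖k‖ ≤ κ → ‖k'‖ ≤ κ →
      G ((1 / 2 : ℝ) • (k + k')) = (1 / 2 : ℝ) • (G k + G k') := by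
    intro k k' hk hk'
    have hk1 : ‖(k : X)‖ ≤ κ := hk
    have hk2 : ‖(k' : X)‖ ≤ κ := hk'
    have hkk : ‖(k : X) - k'‖ ≤ 2 * κ := (norm_sub_le _ _).trans (by linarith)
    have := midpoint_near F h h' hface (hZ k) (hZ k') (by linarith) (by linarith) (by linarith)
    change F.f (c + ((1 / 2 : ℝ) • (k + k') : Z)) - F.f c
      = (1 / 2 : ℝ) • ((F.f (c + k) - F.f c) + (F.f (c + k') - F.f c))
    have e : (((1 / 2 : ℝ) • (k + k') : Z) : X) = (1 / 2 : ℝ) • ((k : X) + k') := by simp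
    rw [e, this]
    module
  have hadd : ∀ k k' : Z, ‖k‖ ≤ κ → ‖k'‖ ≤ κ → ‖k + k'‖ ≤ κ → G (k + k') = G k + G k' := by
    intro k k' hk hk' hkk
    have e1 := hmid k k' hk hk'
    have e2 := hmid (k + k') 0 hkk (by simpa using hκ.le)
    rw [add_zero, hG0, add_zero] at e2
    rw [e1] at e2
    have := congrArg (fun y => (2 : ℝ) • y) e2
    simp only [smul_smul] at this
    norm_num at this
    exact this.symm
  obtain ⟨L, hL1, hL2⟩ := exists_linear_extension G hκ hiso hadd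
  have hψL : ∀ k : Z, ψ (L k) = 0 := by
    intro k
    set t : ℝ := ‖k‖ / κ + 1 with ht
    have ht0 : 0 < t := by positivity
    have h1 : ‖t⁻¹ • k‖ ≤ κ := by
      rw [norm_smul, norm_inv, Real.norm_of_nonneg ht0.le, inv_mul_le_iff₀ ht0, ht]
      have : ‖k‖ / κ * κ = ‖k‖ := div_mul_cancel₀ _ hκ.ne'
      nlinarith [norm_nonneg k]
    have h2 : k = t • (t⁻¹ • k) := by rw [smul_smul, mul_inv_cancel₀ ht0.ne', one_smul]
    rw [h2, map_smul, map_smul, hL2 _ h1, hψG _ h1, smul_zero]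
  let P : X →L[ℝ] Z := (ContinuousLinearMap.id ℝ X - φ.smulRight c).codRestrict Z (by
    intro x
    change φ (x - φ x • c) = 0
    rw [map_sub, map_smul, h.val, smul_eq_mul, mul_one, sub_self])
  have hP : ∀ x, ((P x : Z) : X) = x - φ x • c := fun x => rfl
  let T : X →L[ℝ] Y := φ.smulRight (F.f c) + L.comp P
  have hT : ∀ x, T x = φ x • F.f c + L (P x) := fun x => rfl
  refine ⟨T, κ, hκ, ?_, ?_⟩
  · intro x hx hxc
    have hPx : ‖P x‖ ≤ κ := by
      change ‖((P x : Z) : X)‖ ≤ κ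
      rw [hP, hx, one_smul]
      exact hxc
    rw [hT, hL2 _ hPx, hx, one_smul]
    change F.f c + (F.f (c + ((P x : Z) : X)) - F.f c) = F.f x
    rw [hP, hx, one_smul]
    have : c + (x - c) = x := by abel
    rw [this]
    abel
  · intro x
    rw [hT, map_add, hψL, map_smul, h'.val, smul_eq_mul, mul_one, add_zero]

/-- The local linear map agrees with the isometry on the whole face. -/
theorem T_on_face (F : SphIso X Y) {φ : X →L[ℝ] ℝ} {ψ : Y →L[ℝ] ℝ} {c : X} {r : ℝ}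
    (h : Facet φ c r) (hψ : ∀ y, ψ y ≤ ‖y‖)
    (hface : ∀ x, ‖x‖ = 1 → (φ x = 1 ↔ ψ (F.f x) = 1)) {T : X →L[ℝ] Y} {κ : ℝ} (hκ : 0 < κ)
    (hT : ∀ x, φ x = 1 → ‖x - c‖ ≤ κ → T x = F.f x) :
    ∀ x, ‖x‖ = 1 → φ x = 1 → T x = F.f x := by
  intro x hx hφx
  by_cases hxc : x = c
  · rw [hxc]; exact hT c h.val (by simpa using hκ.le)
  set s : ℝ := ‖x - c‖ with hs
  have hs0 : 0 < s := norm_pos_iff.mpr (sub_ne_zero.mpr hxc)
  have hφv : φ (x - c) = 0 := by rw [map_sub, hφx, h.val, sub_self]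
  -- the segment
  let p : ℝ → X := fun t => c + t • (x - c)
  have hφp : ∀ t, φ (p t) = 1 := by
    intro t
    change φ (c + t • (x - c)) = 1
    rw [map_add, map_smul, hφv, h.val, smul_zero, add_zero]
  have hp1 : ∀ t, 0 ≤ t → t ≤ 1 → ‖p t‖ = 1 := by
    intro t ht0 ht1
    apply norm_one_of h.le (hφp t)
    have : p t = (1 - t) • c + t • x := by
      change c + t • (x - c) = _
      module
    rw [this]
    refine (norm_add_le _ _).trans ?_
    rw [norm_smul, norm_smul, h.norm, hx, Real.norm_of_nonneg ht0,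
      Real.norm_of_nonneg (by linarith)]
    linarith
  have hpd : ∀ t t', ‖p t - p t'‖ = |t - t'| * s := by
    intro t t'
    have : p t - p t' = (t - t') • (x - c) := by
      change c + t • (x - c) - (c + t' • (x - c)) = _
      module
    rw [this, norm_smul, Real.norm_eq_abs]
  -- interior points of the segment are interior points of the facet
  have hfp : ∀ t, 0 ≤ t → t < 1 → Facet φ (p t) ((1 - t) * r) := by
    intro t ht0 ht1
    have h1t : 0 < 1 - t := by linarith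
    refine ⟨mul_pos h1t h.pos, hφp t, h.le, fun k hk hkn => ?_⟩
    have e1 : p t + k = (1 - t) • (c + (1 - t)⁻¹ • k) + t • x := by
      rw [smul_add, smul_smul, mul_inv_cancel₀ h1t.ne', one_smul]
      change c + t • (x - c) + k = _
      module
    rw [e1]
    refine (norm_add_le _ _).trans ?_
    have e2 : ‖c + (1 - t)⁻¹ • k‖ ≤ 1 := by
      apply h.ball _ (by rw [map_smul, hk, smul_zero])
      rw [norm_smul, norm_inv, Real.norm_of_nonneg h1t.le, inv_mul_le_iff₀ h1t]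
      exact hkn
    rw [norm_smul, norm_smul, hx, Real.norm_of_nonneg ht0, Real.norm_of_nonneg h1t.le]
    nlinarith
  -- local step
  have step : ∀ t, 0 < t → t < 1 → (∀ τ, 0 ≤ τ → τ ≤ t → T (p τ) = F.f (p τ)) →
      ∃ σ₀ > 0, ∀ σ, 0 ≤ σ → σ ≤ σ₀ → T (p (t + σ)) = F.f (p (t + σ)) := by
    intro t ht0 ht1 hτ
    have hf := hfp t ht0.le ht1
    obtain ⟨ψ', r₂, hf', hE, -⟩ := dual_facet F hf
    have hψ' : ψ = ψ' := by
      apply hf'.unique hψ
      rw [← hface _ hf.norm]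
      exact hφp t
    rw [← hψ'] at hf'
    have hr1 : 0 < (1 - t) * r := hf.pos
    have hr2 : 0 < r₂ := hf'.pos
    refine ⟨min t (min ((1 - t) * r) r₂ / (3 * s)), by positivity, fun σ hσ0 hσ => ?_⟩
    have hσt : σ ≤ t := hσ.trans (min_le_left _ _)
    have hσs : 3 * (σ * s) ≤ min ((1 - t) * r) r₂ := by
      have := hσ.trans (min_le_right _ _)
      rw [le_div_iff₀ (by positivity)] at this
      linarith
    have hσ1 := hσs.trans (min_le_left _ _)
    have hσ2 := hσs.trans (min_le_right _ _)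
    have hsσ : 0 ≤ σ * s := by positivity
    have hnu : ‖(-σ) • (x - c)‖ = σ * s := by rw [norm_smul, norm_neg, Real.norm_of_nonneg hσ0]
    have hnv : ‖σ • (x - c)‖ = σ * s := by rw [norm_smul, Real.norm_of_nonneg hσ0]
    have hnuv : ‖(-σ) • (x - c) - σ • (x - c)‖ = 2 * (σ * s) := by
      have : (-σ) • (x - c) - σ • (x - c) = (-(2 * σ)) • (x - c) := by module
      rw [this, norm_smul, norm_neg, Real.norm_of_nonneg (by positivity)]
      ring
    have key := midpoint_near F hf hf' hface (u := (-σ) • (x - c)) (v := σ • (x - c))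
      (by rw [map_smul, hφv, smul_zero]) (by rw [map_smul, hφv, smul_zero])
      (by rw [hnu, hnuv]; linarith) (by rw [hnu, hnuv]; linarith) (by rw [hnv]; linarith)
    have e1 : p t + (1 / 2 : ℝ) • ((-σ) • (x - c) + σ • (x - c)) = p t := by module
    have e2 : p t + (-σ) • (x - c) = p (t - σ) := by
      change c + t • (x - c) + (-σ) • (x - c) = c + (t - σ) • (x - c)
      module
    have e3 : p t + σ • (x - c) = p (t + σ) := by
      change c + t • (x - c) + σ • (x - c) = c + (t + σ) • (x - c)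
      module
    rw [e1, e2, e3, ← hτ t ht0.le le_rfl, ← hτ (t - σ) (by linarith) (by linarith)] at key
    have e4 : F.f (p (t + σ)) = (2 : ℝ) • T (p t) - T (p (t - σ)) := by
      rw [key]; module
    rw [e4, ← map_smul, ← map_sub]
    congr 1
    change c + (t + σ) • (x - c) = (2 : ℝ) • (c + t • (x - c)) - (c + (t - σ) • (x - c))
    module
  -- base
  have base : ∀ τ, 0 ≤ τ → τ ≤ κ / s → T (p τ) = F.f (p τ) := by
    intro τ hτ0 hτ
    apply hT _ (hφp τ)
    have : p τ - c = τ • (x - c) := by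
      change c + τ • (x - c) - c = _
      abel
    rw [this, norm_smul, Real.norm_of_nonneg hτ0]
    rwa [le_div_iff₀ hs0] at hτ
  -- supremum argument
  let A : Set ℝ := {t | 0 ≤ t ∧ t ≤ 1 ∧ ∀ τ, 0 ≤ τ → τ ≤ t → T (p τ) = F.f (p τ)}
  have hbase : min 1 (κ / s) ∈ A := by
    refine ⟨by positivity, min_le_left _ _, fun τ h0 h1 => base τ h0 (h1.trans (min_le_right _ _))⟩
  have hbdd : BddAbove A := ⟨1, fun t ht => ht.2.1⟩
  set t₀ := sSup A with ht₀
  have ht₀pos : 0 < t₀ := lt_of_lt_of_le (by positivity) (le_csSup hbdd hbase)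
  have ht₀1 : t₀ ≤ 1 := csSup_le ⟨_, hbase⟩ fun t ht => ht.2.1
  have hlt : ∀ τ, 0 ≤ τ → τ < t₀ → T (p τ) = F.f (p τ) := by
    intro τ h0 h1
    obtain ⟨t, ht, htτ⟩ := exists_lt_of_lt_csSup ⟨_, hbase⟩ h1
    exact ht.2.2 τ h0 htτ.le
  have hat : T (p t₀) = F.f (p t₀) := by
    by_contra hne
    have hpos : 0 < ‖T (p t₀) - F.f (p t₀)‖ := norm_pos_iff.mpr (sub_ne_zero.mpr hne)
    set δ := ‖T (p t₀) - F.f (p t₀)‖
    set K := ‖T‖ * s + s with hK
    have hKpos : 0 < K := by positivity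
    obtain ⟨ε, hε0, hε1, hε2⟩ : ∃ ε > 0, ε ≤ t₀ ∧ ε * K < δ := by
      refine ⟨min t₀ (δ / (2 * K)), by positivity, min_le_left _ _, ?_⟩
      have := min_le_right t₀ (δ / (2 * K))
      calc min t₀ (δ / (2 * K)) * K ≤ δ / (2 * K) * K := by gcongr
        _ = δ / 2 := by field_simp
        _ < δ := by linarith
    have h1 := hlt (t₀ - ε) (by linarith) (by linarith)
    have h2 : δ ≤ ε * K := by
      have e1 : T (p t₀) - F.f (p t₀) = T (p t₀ - p (t₀ - ε)) + (F.f (p (t₀ - ε)) - F.f (p t₀)) := by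
        rw [map_sub, h1]; abel
      calc δ = ‖T (p t₀ - p (t₀ - ε)) + (F.f (p (t₀ - ε)) - F.f (p t₀))‖ := by rw [← e1]
        _ ≤ ‖T (p t₀ - p (t₀ - ε))‖ + ‖F.f (p (t₀ - ε)) - F.f (p t₀)‖ := norm_add_le _ _
        _ ≤ ‖T‖ * ‖p t₀ - p (t₀ - ε)‖ + ‖p (t₀ - ε) - p t₀‖ := by
            rw [F.iso _ _ (hp1 _ (by linarith) (by linarith)) (hp1 _ ht₀pos.le ht₀1)]
            exact add_le_add (T.le_opNorm _) le_rfl
        _ = ε * K := by
            rw [hpd, hpd]
            have a1 : t₀ - (t₀ - ε) = ε := by ring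
            have a2 : t₀ - ε - t₀ = -ε := by ring
            rw [a1, a2, abs_neg, abs_of_pos hε0, hK]
            ring
    linarith
  have hle : ∀ τ, 0 ≤ τ → τ ≤ t₀ → T (p τ) = F.f (p τ) := by
    intro τ h0 h1
    rcases h1.lt_or_eq with h2 | h2
    · exact hlt τ h0 h2
    · rw [h2]; exact hat
  have ht₀eq : t₀ = 1 := by
    by_contra hne
    have hlt1 : t₀ < 1 := lt_of_le_of_ne ht₀1 hne
    obtain ⟨σ₀, hσ₀, hσ⟩ := step t₀ ht₀pos hlt1 hle
    have hmem : t₀ + min σ₀ (1 - t₀) ∈ A := by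
      have : 0 < min σ₀ (1 - t₀) := lt_min hσ₀ (by linarith)
      refine ⟨by linarith, by have := min_le_right σ₀ (1 - t₀); linarith, fun τ h0 h1 => ?_⟩
      rcases le_or_gt τ t₀ with h2 | h2
      · exact hle τ h0 h2
      · have := hσ (τ - t₀) (by linarith) (by have := min_le_left σ₀ (1 - t₀); linarith)
        rwa [add_sub_cancel] at this
    have h1 := le_csSup hbdd hmem
    have : 0 < min σ₀ (1 - t₀) := lt_min hσ₀ (by linarith)
    linarith
  have := hle 1 zero_le_one (by rw [ht₀eq])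
  have e : p 1 = x := by
    change c + (1 : ℝ) • (x - c) = x
    rw [one_smul]; abel
  rwa [e] at this

/-- A facet of the first sphere together with its image and the linear map on it. -/
structure Matched (F : SphIso X Y) (φ : X →L[ℝ] ℝ) (ψ : Y →L[ℝ] ℝ) (T : X →L[ℝ] Y) : Prop where
  facet : ∃ c r, Facet φ c r
  le : ∀ y, ψ y ≤ ‖y‖
  face : ∀ x, ‖x‖ = 1 → φ x = 1 → T x = F.f x
  comp : ∀ x, ψ (T x) = φ x
  surj : Function.Surjective T
  near : ∃ ρ > 0, ∀ z x, ‖z‖ = 1 → φ z = 1 → ‖x‖ = 1 → ‖x - z‖ ≤ ρ → ψ (F.f x) = φ x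

theorem Facet.sum_le {φ : X →L[ℝ] ℝ} {c : X} {r : ℝ} (h : Facet φ c r) (hr : r ≤ 1) {z x : X}
    (hz : ‖z‖ = 1) (hφz : φ z = 1) (hxz : ‖x - z‖ ≤ r / 4) :
    ‖x + c‖ ≤ 1 + φ x := by
  have hr0 := h.pos
  have h1 : |φ (x - z)| ≤ ‖x - z‖ := by
    apply abs_le.mpr
    constructor
    · have := h.le (-(x - z))
      rw [map_neg, norm_neg] at this
      linarith
    · exact h.le _
  have h2 : φ x = 1 + φ (x - z) := by rw [map_sub, hφz]; ring
  have h3 := abs_le.mp (h1.trans hxz)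
  set N : ℝ := 1 + φ x with hN
  have hNpos : 0 < N := by linarith [h3.1]
  have hN1 : 3 / 2 ≤ N := by linarith [h3.1]
  -- N⁻¹ (x + c) is the average of z and c plus a small vector of the kernel
  set k : X := N⁻¹ • (x + c) - (1 / 2 : ℝ) • (z + c) with hk
  have hφk : φ k = 0 := by
    rw [hk, map_sub, map_smul, map_smul, map_add, map_add, h.val, hφz, smul_eq_mul, smul_eq_mul,
      add_comm (φ x) 1, ← hN, inv_mul_cancel₀ hNpos.ne']
    norm_num
  have hkn : ‖k‖ ≤ r / 2 := by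
    have e1 : k = N⁻¹ • ((x - z) - ((N - 2) / 2) • (z + c)) := by
      rw [hk, smul_sub, smul_smul]
      have : N⁻¹ * ((N - 2) / 2) = 1 / 2 - N⁻¹ := by field_simp
      rw [this]
      module
    rw [e1, norm_smul, norm_inv, Real.norm_of_nonneg hNpos.le, inv_mul_le_iff₀ hNpos]
    have e2 : ‖z + c‖ ≤ 2 := by
      refine (norm_add_le _ _).trans ?_
      rw [hz, h.norm]; norm_num
    have e3 : N - 2 = φ (x - z) := by rw [hN, h2]; ring
    calc ‖(x - z) - ((N - 2) / 2) • (z + c)‖ ≤ ‖x - z‖ + ‖((N - 2) / 2) • (z + c)‖ :=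
          norm_sub_le _ _
      _ ≤ r / 4 + |φ (x - z)| := by
          rw [norm_smul, Real.norm_eq_abs, abs_div, abs_two, e3]
          have := abs_nonneg (φ (x - z))
          nlinarith
      _ ≤ N * (r / 2) := by nlinarith [h1.trans hxz]
  have e4 : x + c = N • ((1 / 2 : ℝ) • z + (1 / 2 : ℝ) • (c + (2 : ℝ) • k)) := by
    have : (1 / 2 : ℝ) • z + (1 / 2 : ℝ) • (c + (2 : ℝ) • k) = N⁻¹ • (x + c) := by
      rw [hk]; module
    rw [this, smul_smul, mul_inv_cancel₀ hNpos.ne', one_smul]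
  rw [e4, norm_smul, Real.norm_of_nonneg hNpos.le]
  have e5 : ‖c + (2 : ℝ) • k‖ ≤ 1 := by
    apply h.ball _ (by rw [map_smul, hφk, smul_zero])
    rw [norm_smul]; norm_num; linarith
  have e6 : ‖(1 / 2 : ℝ) • z + (1 / 2 : ℝ) • (c + (2 : ℝ) • k)‖ ≤ 1 := by
    refine (norm_add_le _ _).trans ?_
    rw [norm_smul, norm_smul, hz, Real.norm_of_nonneg (by norm_num)]
    linarith
  nlinarith

/-- One inequality of the preservation of the functional near the face. -/
theorem near_le (F : SphIso X Y) {φ : X →L[ℝ] ℝ} {ψ : Y →L[ℝ] ℝ} {c : X} {r : ℝ}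
    (h : Facet φ c r) (hψ : ∀ y, ψ y ≤ ‖y‖) (hc : ψ (-F.f (-c)) = 1) :
    ∃ ρ > 0, ∀ z x, ‖z‖ = 1 → φ z = 1 → ‖x‖ = 1 → ‖x - z‖ ≤ ρ → ψ (F.f x) ≤ φ x := by
  have h1 : Facet φ c (min r 1) := h.mono (lt_min h.pos one_pos) (min_le_left _ _)
  refine ⟨min r 1 / 4, by have := h1.pos; positivity, fun z x hz hφz hx hxz => ?_⟩
  have h2 := h1.sum_le (min_le_right _ _) hz hφz hxz
  have hcn : ‖-c‖ = 1 := by rw [norm_neg]; exact h.norm
  have h3 : ψ (F.f x) + 1 ≤ ‖x + c‖ := by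
    calc ψ (F.f x) + 1 = ψ (F.f x + -F.f (-c)) := by rw [map_add, hc]
      _ ≤ ‖F.f x + -F.f (-c)‖ := hψ _
      _ = ‖x + c‖ := by rw [← sub_eq_add_neg, F.iso _ _ hx hcn, sub_neg_eq_add]
  linarith

theorem exists_matched (F : SphIso X Y) {φ : X →L[ℝ] ℝ} {c : X} {r : ℝ} (h : Facet φ c r) :
    ∃ ψ T, Matched F φ ψ T := by
  obtain ⟨ψ, r', h', hE, hD⟩ := dual_facet F h
  have hface : ∀ x, ‖x‖ = 1 → (φ x = 1 ↔ ψ (F.f x) = 1) := by
    intro x hx
    rw [hE _ (F.nf x hx), F.gf x hx]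
  obtain ⟨T, κ, hκ, hT1, hT2⟩ := exists_T_local F h h' hface
  have hT3 := T_on_face F h h'.le hface hκ hT1
  -- the inverse side
  have hgc : F.symm.f (F.f c) = c := F.gf c h.norm
  have h'' : Facet φ (F.symm.f (F.f c)) r := by rw [hgc]; exact h
  have hface' : ∀ y, ‖y‖ = 1 → (ψ y = 1 ↔ φ (F.symm.f y) = 1) := fun y hy => hE y hy
  obtain ⟨S, κ', hκ', hS1, hS2⟩ := exists_T_local F.symm h' h'' hface'
  have hTS : ∀ y, T (S y) = y := by
    -- agreement near F.f c inside the hyperplane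
    have hloc : ∀ y, ψ y = 1 → ‖y - F.f c‖ ≤ min κ' r' → T (S y) = y := by
      intro y hy hyc
      have hy1 : ‖y‖ = 1 := by
        have := h'.norm_add (k := y - F.f c) (by rw [map_sub, hy, h'.val, sub_self])
          (hyc.trans (min_le_right _ _))
        rwa [add_sub_cancel] at this
      have e1 := hS1 y hy (hyc.trans (min_le_left _ _))
      have e2 : ‖F.g y‖ = 1 := F.ng y hy1
      have e3 : φ (F.g y) = 1 := (hE y hy1).mp hy
      have e4 := hT3 (F.g y) e2 e3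
      rw [F.fg y hy1] at e4
      rw [e1]
      exact e4
    have hm : 0 < min κ' r' := lt_min hκ' h'.pos
    have hc0 := hloc (F.f c) h'.val (by simpa using hm.le)
    have hker : ∀ k, ψ k = 0 → T (S k) = k := by
      intro k hk
      set t : ℝ := ‖k‖ / min κ' r' + 1 with ht
      have ht0 : 0 < t := by positivity
      have h1 : ‖t⁻¹ • k‖ ≤ min κ' r' := by
        rw [norm_smul, norm_inv, Real.norm_of_nonneg ht0.le, inv_mul_le_iff₀ ht0, ht]
        have : ‖k‖ / min κ' r' * min κ' r' = ‖k‖ := div_mul_cancel₀ _ hm.ne'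
        nlinarith [norm_nonneg k]
      have h2 := hloc (F.f c + t⁻¹ • k) (by rw [map_add, h'.val, map_smul, hk, smul_zero, add_zero])
        (by rw [add_sub_cancel_left]; exact h1)
      rw [map_add, map_add, hc0, map_smul, map_smul] at h2
      have h3 : t⁻¹ • T (S k) = t⁻¹ • k := add_left_cancel h2
      have := congrArg (fun y => t • y) h3
      simp only [smul_smul, mul_inv_cancel₀ ht0.ne', one_smul] at this
      exact this
    intro y
    have hy : y = ψ y • F.f c + (y - ψ y • F.f c) := by abel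
    have h2 := hker (y - ψ y • F.f c) (by rw [map_sub, map_smul, h'.val, smul_eq_mul, mul_one,
      sub_self])
    calc T (S y) = T (S (ψ y • F.f c + (y - ψ y • F.f c))) := by rw [← hy]
      _ = ψ y • T (S (F.f c)) + T (S (y - ψ y • F.f c)) := by
        rw [map_add, map_add, map_smul, map_smul]
      _ = y := by rw [h2, hc0, ← hy]
  have hcn : ‖-c‖ = 1 := by rw [norm_neg]; exact h.norm
  have hn1 : ψ (-F.f (-c)) = 1 := by
    rw [hD _ (by rw [norm_neg]; exact F.nf _ hcn), neg_neg, F.gf _ hcn, neg_neg]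
    exact h.val
  have hn2 : φ (-F.symm.f (-F.f c)) = 1 := (hD _ (F.nf c h.norm)).mp h'.val
  obtain ⟨ρ₁, hρ₁, hr1⟩ := near_le F h h'.le hn1
  obtain ⟨ρ₂, hρ₂, hr2⟩ := near_le F.symm h' h.le hn2
  refine ⟨ψ, T, ⟨⟨c, r, h⟩, h'.le, hT3, hT2, fun y => ⟨S y, hTS y⟩,
    min ρ₁ ρ₂, lt_min hρ₁ hρ₂, ?_⟩⟩
  intro z x hz hφz hx hxz
  apply le_antisymm (hr1 z x hz hφz hx (hxz.trans (min_le_left _ _)))
  have := hr2 (F.f z) (F.f x) (F.nf z hz) ((hface z hz).mp hφz) (F.nf x hx)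
    (by rw [F.iso _ _ hx hz]; exact hxz.trans (min_le_right _ _))
  change φ (F.g (F.f x)) ≤ _ at this
  rwa [F.gf x hx] at this

end Vale.Agent.H7Tingley
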