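import Vale.Agent.Lib.H7Tingley.Ext

/-! Polyhedral spaces. -/

namespace Vale.Agent.H7Tingley

open Metric

variable {X Y : Type*} [NormedAddCommGroup X] [NormedSpace ℝ X]
  [NormedAddCommGroup Y] [NormedSpace ℝ Y]

theorem exists_norming_all (y : X) : ∃ φ : X →L[ℝ] ℝ, (∀ x, φ x ≤ ‖x‖) ∧ φ y = ‖y‖ := by
  by_cases hy : y = 0
  · exact ⟨0, fun x => by simp, by simp [hy]⟩
  · exact exists_norming y hy

theorem exists_weights (P : Finset X) (E : Submodule ℝ X)
    (h : closedBall (0 : X) 1 ∩ E = convexHull ℝ (P : Set X)) (y : X) (hy : y ∈ E) :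
    ∃ w : X → ℝ, (∀ p ∈ P, 0 ≤ w p) ∧ ∑ p ∈ P, w p = ‖y‖ ∧ ∑ p ∈ P, w p • p = y := by
  by_cases hy0 : y = 0
  · exact ⟨fun _ => 0, fun _ _ => le_rfl, by simp [hy0], by simp [hy0]⟩
  · have hn : ‖y‖ ≠ 0 := norm_ne_zero_iff.mpr hy0
    have hm : ‖y‖⁻¹ • y ∈ convexHull ℝ (P : Set X) := by
      rw [← h]
      refine ⟨?_, E.smul_mem _ hy⟩
      rw [mem_closedBall_zero_iff, SphIso.norm_inv_smul hy0]
    rw [Finset.mem_convexHull'] at hm
    obtain ⟨w, hw0, hw1, hw2⟩ := hm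
    refine ⟨fun p => ‖y‖ * w p, fun p hp => mul_nonneg (norm_nonneg _) (hw0 p hp), ?_, ?_⟩
    · rw [← Finset.mul_sum, hw1, mul_one]
    · simp only [mul_smul]
      rw [← Finset.smul_sum, hw2, smul_smul, mul_inv_cancel₀ hn, one_smul]

/-- Polyhedrality of planes gives norms affine on initial parts of rays. -/
theorem rayLin_of_poly
    (h : ∀ E : Submodule ℝ X, FiniteDimensional ℝ E →
      ∃ P : Set X, P.Finite ∧ closedBall (0 : X) 1 ∩ E = convexHull ℝ P) : RayLin X := by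
  intro x v
  have hfin : FiniteDimensional ℝ (Submodule.span ℝ ({x, v} : Set X)) :=
    FiniteDimensional.span_of_finite ℝ (by simp)
  obtain ⟨P', hPf, hP'⟩ := h (Submodule.span ℝ {x, v}) hfin
  obtain ⟨P, rfl⟩ := hPf.exists_finset_coe
  set E := Submodule.span ℝ ({x, v} : Set X) with hE
  have hxE : x ∈ E := Submodule.subset_span (by simp)
  have hvE : v ∈ E := Submodule.subset_span (by simp)
  let t : ℕ → ℝ := fun n => 1 / ((n : ℝ) + 1)
  have ht0 : ∀ n, 0 < t n := fun n => by positivity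
  have hyE : ∀ n, x + t n • v ∈ E := fun n => E.add_mem hxE (E.smul_mem _ hvE)
  choose w hw0 hw1 hw2 using fun n => exists_weights P E hP' (x + t n • v) (hyE n)
  obtain ⟨s, hs⟩ := Finite.exists_infinite_fiber
    (fun n : ℕ => fun p : P => 0 < w n (p : X))
  have hsi : (((fun n : ℕ => fun p : P => 0 < w n (p : X)) ⁻¹' {s}) : Set ℕ).Infinite :=
    Set.infinite_coe_iff.mp hs
  obtain ⟨n₀, hn₀⟩ := hsi.nonempty
  obtain ⟨φ, hφ, hφ₀⟩ := exists_norming_all (x + t n₀ • v)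
  have hPball : ∀ p ∈ P, ‖p‖ ≤ 1 := by
    intro p hp
    have : p ∈ convexHull ℝ (P : Set X) := subset_convexHull ℝ _ hp
    rw [← hP'] at this
    simpa using this.1
  have hφp : ∀ p ∈ P, 0 < w n₀ p → φ p = 1 := by
    have h1 : ∀ p ∈ P, 0 ≤ w n₀ p * (1 - φ p) := fun p hp =>
      mul_nonneg (hw0 n₀ p hp) (by linarith [hφ p, hPball p hp])
    have h2 : ∑ p ∈ P, w n₀ p * (1 - φ p) = 0 := by
      simp only [mul_sub, mul_one]
      rw [Finset.sum_sub_distrib, hw1]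
      have h3 : φ (∑ p ∈ P, w n₀ p • p) = ∑ p ∈ P, w n₀ p * φ p := by
        rw [map_sum]
        simp only [map_smul, smul_eq_mul]
      rw [← h3, hw2, hφ₀, sub_self]
    intro p hp hpos
    have h3 := (Finset.sum_eq_zero_iff_of_nonneg h1).mp h2 p hp
    rcases mul_eq_zero.mp h3 with h4 | h4
    · exact absurd h4 hpos.ne'
    · linarith
  have hφn : ∀ n, (fun p : P => 0 < w n (p : X)) = s → φ (x + t n • v) = ‖x + t n • v‖ := by
    intro n hn
    have h3 : φ (∑ p ∈ P, w n p • p) = ∑ p ∈ P, w n p * φ p := by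
      rw [map_sum]
      simp only [map_smul, smul_eq_mul]
    rw [hw2] at h3
    rw [h3, ← hw1 n]
    apply Finset.sum_congr rfl
    intro p hp
    rcases (hw0 n p hp).eq_or_lt with h4 | h4
    · rw [← h4, zero_mul]
    · have h5 : 0 < w n₀ p := by
        have h6 : s ⟨p, hp⟩ := by rw [← hn]; exact h4
        have h7 : (fun p : P => 0 < w n₀ (p : X)) = s := hn₀
        rw [← h7] at h6
        exact h6
      rw [hφp p hp h5, mul_one]
  have hφx : φ x = ‖x‖ := by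
    apply le_antisymm (hφ x)
    by_contra hcon
    push Not at hcon
    obtain ⟨N, hN⟩ := exists_nat_gt (2 * ‖v‖ / (‖x‖ - φ x))
    obtain ⟨n, hn, hnN⟩ := hsi.exists_gt N
    have h1 := hφn n hn
    have hgap : 0 < ‖x‖ - φ x := by linarith
    rw [div_lt_iff₀ hgap] at hN
    have h2 : φ (x + t n • v) = φ x + t n * φ v := by
      rw [map_add, map_smul, smul_eq_mul]
    have h3 : ‖x‖ ≤ ‖x + t n • v‖ + t n * ‖v‖ := by
      calc ‖x‖ = ‖(x + t n • v) - t n • v‖ := by congr 1; abel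
        _ ≤ ‖x + t n • v‖ + ‖t n • v‖ := norm_sub_le _ _
        _ = _ := by rw [norm_smul, Real.norm_of_nonneg (ht0 n).le]
    have h4 : t n * φ v ≤ t n * ‖v‖ := mul_le_mul_of_nonneg_left (hφ v) (ht0 n).le
    have h5 : ‖x‖ - φ x ≤ t n * (2 * ‖v‖) := by linarith
    have h6 : (‖x‖ - φ x) * ((n : ℝ) + 1) ≤ 2 * ‖v‖ := by
      have : t n * ((n : ℝ) + 1) = 1 := by
        change 1 / ((n : ℝ) + 1) * ((n : ℝ) + 1) = 1
        field_simp
      calc (‖x‖ - φ x) * ((n : ℝ) + 1) ≤ t n * (2 * ‖v‖) * ((n : ℝ) + 1) := by gcongr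
        _ = (t n * ((n : ℝ) + 1)) * (2 * ‖v‖) := by ring
        _ = 2 * ‖v‖ := by rw [this, one_mul]
    have h7 : (N : ℝ) < n := by exact_mod_cast hnN
    nlinarith
  refine ⟨t n₀, ht0 n₀, φ v, fun τ h0 h1 => ?_⟩
  have hy : φ (x + τ • v) = ‖x‖ + τ * φ v := by
    rw [map_add, map_smul, smul_eq_mul, hφx]
  have hy0 : φ (x + t n₀ • v) = ‖x‖ + t n₀ * φ v := by
    rw [map_add, map_smul, smul_eq_mul, hφx]
  apply le_antisymm
  · have hs1 : τ / t n₀ ≤ 1 := (div_le_one (ht0 n₀)).mpr h1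
    have hs0 : 0 ≤ τ / t n₀ := div_nonneg h0 (ht0 n₀).le
    have e : x + τ • v = (1 - τ / t n₀) • x + (τ / t n₀) • (x + t n₀ • v) := by
      rw [smul_add, smul_smul, div_mul_cancel₀ _ (ht0 n₀).ne', sub_smul, one_smul]
      abel
    rw [e]
    refine (norm_add_le _ _).trans ?_
    rw [norm_smul, norm_smul, Real.norm_of_nonneg hs0, Real.norm_of_nonneg (by linarith),
      ← hφ₀, hy0]
    have : τ / t n₀ * t n₀ = τ := div_mul_cancel₀ _ (ht0 n₀).ne'
    apply le_of_eq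
    calc (1 - τ / t n₀) * ‖x‖ + τ / t n₀ * (‖x‖ + t n₀ * φ v)
        = ‖x‖ + (τ / t n₀ * t n₀) * φ v := by ring
      _ = ‖x‖ + τ * φ v := by rw [this]
  · rw [← hy]
    exact hφ _

end Vale.Agent.H7Tingley
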